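import Vale.Agent.P088.R2.H871.Uo

/-!
# P088, stage 4, row X-KB: orders of vanishing of differences and Taylor remainders
-/

open MeasureTheory Set
open scoped ContDiff Matrix NNReal

noncomputable section

namespace Vale.Agent.P088.S4.H871

open Vale.Agent.P088.LR Vale.Agent.P088.LR.U Vale.Agent.P088.LR.H158
open Vale.Agent.P088.HY (VV)
open Vale.Agent.P088.PJ
open Vale.Agent.P088.PJ.H696 (Bd BM qL qL_apply qL_norm fd_eq taylor)

variable {ι : Type*} {n N : ℕ} {r : ι → Set.Icc (0 : ℝ) 1} {zz : ι → VV n} {W : ι → ℝ≥0}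
  {K j : ℕ}

/-- `x_b - y_b` -/
def q (b : Fin n) (z : VV n) : ℂ := ((z.1 b - z.2 b : ℝ) : ℂ)

theorem q_le (b : Fin n) (z : VV n) : ‖q b z‖ ≤ ‖z.1 - z.2‖ := by
  unfold q
  rw [Complex.norm_real]
  exact norm_le_pi_norm (z.1 - z.2) b

theorem uo_q (hr : ∀ i, (r i : ℝ) = ‖(zz i).1 - (zz i).2‖) (b : Fin n) :
    UO r zz 1 K 1 (fun _ z => q b z) := by
  refine ⟨2, by norm_num, fun i => ⟨(qL b).contDiff, fun l _ => ?_⟩⟩
  simp only [Pi.one_apply, NNReal.coe_one, mul_one]
  rcases l with _ | _ | l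
  · rw [norm_iteratedFDeriv_zero, Nat.sub_zero, pow_one, hr]
    have := q_le b (zz i)
    have h2 := norm_nonneg ((zz i).1 - (zz i).2)
    linarith
  · have h7 : ‖iteratedFDeriv ℝ (0 + 1) (q b) (zz i)‖ = ‖fderiv ℝ (qL b) (zz i)‖ := by
      rw [zero_add]
      exact norm_iteratedFDeriv_one _
    rw [h7, (qL b).fderiv]
    simpa using qL_norm b
  · have h8 : ‖iteratedFDeriv ℝ (l + 1 + 1) (q b) (zz i)‖ = 0 := by
      have h9 : (q b : VV n → ℂ) = qL b := rfl
      rw [h9, ← norm_iteratedFDeriv_fderiv]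
      have : fderiv ℝ (qL b : VV n → ℂ) = fun _ => qL b := funext fun z => (qL b).fderiv
      rw [this, iteratedFDeriv_const_of_ne (by omega)]
      simp
    rw [h8]
    have := r0 r i
    positivity

section Fn

variable {F : Type*} [NormedAddCommGroup F] [NormedSpace ℝ F]

theorem uo_fst {f : ι → V n → F} (h : UG univ K f) : UO r zz 1 K 0 (fun i z => f i z.1) :=
  UO.comp (ContinuousLinearMap.fst ℝ (V n) (V n)) (ContinuousLinearMap.norm_fst_le _ _ _) h.uo

theorem uo_snd {f : ι → V n → F} (h : UO r (fun i => (zz i).2) W K j f) :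
    UO r zz W K j (fun i z => f i z.2) :=
  UO.comp (ContinuousLinearMap.snd ℝ (V n) (V n)) (ContinuousLinearMap.norm_snd_le _ _ _) h

theorem um_snd {f : ι → V n → Matrix (Fin N) (Fin N) ℂ}
    (h : UM r (fun i => (zz i).2) W K j f) : UM r zz W K j (fun i z => f i z.2) :=
  fun a b => uo_snd (h a b)

/-- the difference -/
theorem uo_df (hr : ∀ i, (r i : ℝ) = ‖(zz i).1 - (zz i).2‖) {f : ι → V n → F}
    (h : UG univ (K + 1) f) : UO r zz 1 K 1 (fun i z => f i z.1 - f i z.2) := by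
  have h0 : UO r zz 1 (K + 1) 0 (fun i z => f i z.1 - f i z.2) := (uo_fst h).sub (uo_snd h.uo)
  obtain ⟨C0, hC0, h0⟩ := h0
  obtain ⟨C, hC, h⟩ := h
  refine ⟨C0 + C, by positivity, fun i => ⟨(h0 i).1, fun l hl => ?_⟩⟩
  simp only [Pi.one_apply, NNReal.coe_one, mul_one]
  rcases Nat.eq_zero_or_pos l with rfl | hl0
  · rw [norm_iteratedFDeriv_zero, Nat.sub_zero, pow_one]
    have h1 := (h i).lip convex_univ (mem_univ (zz i).1) (mem_univ (zz i).2)
    have h2 := r0 r i
    rw [hr] at h2 ⊢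
    nlinarith
  · have h1 := (h0 i).2 l (by omega)
    have e : 1 - l = 0 := by omega
    rw [e]
    simp at h1 ⊢
    linarith

end Fn

theorem fd_lip {f : V n → ℂ} {C : ℝ} (h : Bd univ (K + 2) C f) (x y : V n) :
    ‖fderiv ℝ f x - fderiv ℝ f y‖ ≤ C * ‖x - y‖ := by
  have h1 : ContDiff ℝ ∞ (fderiv ℝ f) := h.1.fderiv_right (m := ∞) (mod_cast le_top)
  exact convex_univ.norm_image_sub_le_of_norm_fderiv_le (𝕜 := ℝ)
    (fun w _ => (h1.differentiable (by decide)).differentiableAt)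
    (fun w hw => by
      have h4 := h.2 (1 + 1) (by omega) w hw
      rw [← norm_iteratedFDeriv_fderiv, norm_iteratedFDeriv_one] at h4
      exact h4) (mem_univ y) (mem_univ x)

/-- the Taylor remainder -/
def Tr (f : V n → ℂ) (z : VV n) : ℂ := f z.1 - f z.2 - ∑ b, q b z * pd b f z.2

theorem pd_sm {f : V n → ℂ} (h : ContDiff ℝ ∞ f) (b : Fin n) : ContDiff ℝ ∞ (pd b f) :=
  (h.fderiv_right (m := ∞) (mod_cast le_top)).clm_apply contDiff_const

theorem tr_fd {f : V n → ℂ} (h : ContDiff ℝ ∞ f) (z v : VV n) :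
    fderiv ℝ (Tr f) z v = (fderiv ℝ f z.1 - fderiv ℝ f z.2) v.1 -
      ∑ b, q b z * fderiv ℝ (pd b f) z.2 v.2 := by
  have hd : ∀ x, DifferentiableAt ℝ f x := fun x => (h.differentiable (by decide)).differentiableAt
  have hpd : ∀ b x, DifferentiableAt ℝ (pd b f) x := fun b x =>
    ((pd_sm h b).differentiable (by decide)).differentiableAt
  have h1 : HasFDerivAt (fun z : VV n => f z.1)
      ((fderiv ℝ f z.1).comp (ContinuousLinearMap.fst ℝ (V n) (V n))) z :=
    (hd z.1).hasFDerivAt.comp z hasFDerivAt_fst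
  have h2 : HasFDerivAt (fun z : VV n => f z.2)
      ((fderiv ℝ f z.2).comp (ContinuousLinearMap.snd ℝ (V n) (V n))) z :=
    (hd z.2).hasFDerivAt.comp z hasFDerivAt_snd
  have h3 : ∀ b, HasFDerivAt (fun z : VV n => pd b f z.2)
      ((fderiv ℝ (pd b f) z.2).comp (ContinuousLinearMap.snd ℝ (V n) (V n))) z := fun b =>
    (hpd b z.2).hasFDerivAt.comp z hasFDerivAt_snd
  have h4 : ∀ b, HasFDerivAt (fun z : VV n => q b z) (qL b) z := fun b => (qL b).hasFDerivAt
  have h5 := (h1.sub h2).sub (HasFDerivAt.fun_sum (u := Finset.univ)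
    fun b _ => (h4 b).mul (h3 b))
  have h6 : fderiv ℝ (Tr f) z = _ := h5.fderiv
  rw [h6]
  simp only [ContinuousLinearMap.sub_apply, ContinuousLinearMap.comp_apply,
    ContinuousLinearMap.coe_fst', ContinuousLinearMap.coe_snd', ContinuousLinearMap.sum_apply,
    ContinuousLinearMap.add_apply, ContinuousLinearMap.smul_apply, smul_eq_mul]
  have h7 : ∀ b, qL b v = ((v.1 b : ℝ) : ℂ) - ((v.2 b : ℝ) : ℂ) := fun b => by
    rw [qL_apply]
    push_cast
    rfl
  simp only [h7]
  rw [Finset.sum_add_distrib]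
  have h8 : ∑ b, pd b f z.2 * (((v.1 b : ℝ) : ℂ) - ((v.2 b : ℝ) : ℂ)) =
      fderiv ℝ f z.2 v.1 - fderiv ℝ f z.2 v.2 := by
    rw [fd_eq f z.2 v.1, fd_eq f z.2 v.2, ← Finset.sum_sub_distrib]
    exact Finset.sum_congr rfl fun b _ => by ring
  rw [h8]
  ring

theorem uo_tr (hr : ∀ i, (r i : ℝ) = ‖(zz i).1 - (zz i).2‖) {f : ι → V n → ℂ}
    (h : UG univ (K + 2) f) : UO r zz 1 K 2 (fun i z => Tr (f i) z) := by
  have hp : ∀ b, UG univ (K + 1) (fun i => pd b (f i)) := by
    intro b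
    obtain ⟨C, hC, h⟩ := h
    refine ⟨C, hC, fun i => (h i).fd (Pi.single b 1) ?_⟩
    refine (pi_norm_le_iff_of_nonneg zero_le_one).mpr fun j => ?_
    rcases eq_or_ne j b with rfl | hj
    · rw [Pi.single_eq_same, norm_one]
    · rw [Pi.single_eq_of_ne hj, norm_zero]
      exact zero_le_one
  have h0 : UO r zz 1 K 0 (fun i z => Tr (f i) z) := by
    refine (((uo_fst h).sub (uo_snd h.uo)).mono (by omega) le_rfl).sub
      (UO.sum Finset.univ fun b _ => ?_)
    exact ((uo_q hr b).cmul (uo_snd ((hp b).uo.mono (Nat.le_succ K) le_rfl))).mono le_rfl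
      (Nat.zero_le _)
  obtain ⟨C0, hC0, h0⟩ := h0
  obtain ⟨C, hC, h⟩ := h
  have hpb : ∀ i b (y : V n), ‖fderiv ℝ (pd b (f i)) y‖ ≤ C := by
    intro i b y
    have h1 := (h i).fd (K := K + 1) (Pi.single b 1) (by
      refine (pi_norm_le_iff_of_nonneg zero_le_one).mpr fun j => ?_
      rcases eq_or_ne j b with rfl | hj
      · rw [Pi.single_eq_same, norm_one]
      · rw [Pi.single_eq_of_ne hj, norm_zero]
        exact zero_le_one)
    have h2 := h1.2 1 (by omega) y (mem_univ _)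
    rwa [norm_iteratedFDeriv_one] at h2
  refine ⟨C0 + (n + 1) * C, by positivity, fun i => ⟨(h0 i).1, fun l hl => ?_⟩⟩
  simp only [Pi.one_apply, NNReal.coe_one, mul_one]
  have hr0 := r0 r i
  rcases l with _ | _ | l
  · rw [norm_iteratedFDeriv_zero, Nat.sub_zero]
    have h1 := taylor (h i) convex_univ (mem_univ (zz i).1) (mem_univ (zz i).2)
    rw [← hr] at h1
    have h2 : ‖Tr (f i) (zz i)‖ ≤ C * (r i : ℝ) ^ 2 := h1
    refine h2.trans (mul_le_mul_of_nonneg_right ?_ (by positivity))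
    nlinarith [(Nat.cast_nonneg n : (0 : ℝ) ≤ n)]
  · have h7 : ‖iteratedFDeriv ℝ (0 + 1) (Tr (f i)) (zz i)‖ = ‖fderiv ℝ (Tr (f i)) (zz i)‖ := by
      rw [zero_add]
      exact norm_iteratedFDeriv_one _
    have h8 : ‖fderiv ℝ (Tr (f i)) (zz i)‖ ≤ (n + 1) * C * (r i : ℝ) := by
      refine ContinuousLinearMap.opNorm_le_bound _ (by positivity) fun v => ?_
      rw [tr_fd (h i).1]
      have h9 : ‖(fderiv ℝ (f i) (zz i).1 - fderiv ℝ (f i) (zz i).2) v.1‖ ≤
          C * (r i : ℝ) * ‖v‖ := by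
        refine (ContinuousLinearMap.le_opNorm _ _).trans ?_
        refine mul_le_mul ?_ (norm_fst_le v) (norm_nonneg _) (by positivity)
        rw [hr]
        exact fd_lip (h i) _ _
      have h10 : ‖∑ b, q b (zz i) * fderiv ℝ (pd b (f i)) (zz i).2 v.2‖ ≤
          n * ((r i : ℝ) * (C * ‖v‖)) := by
        refine (norm_sum_le _ _).trans ((Finset.sum_le_sum
          (g := fun _ => (r i : ℝ) * (C * ‖v‖)) fun b _ => ?_).trans ?_)
        · rw [norm_mul]
          refine mul_le_mul ?_ ?_ (norm_nonneg _) hr0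
          · rw [hr]
            exact q_le b _
          · refine (ContinuousLinearMap.le_opNorm _ _).trans ?_
            exact mul_le_mul (hpb i b _) (norm_snd_le v) (norm_nonneg _) hC
        · rw [Finset.sum_const, nsmul_eq_mul, Finset.card_univ, Fintype.card_fin]
      refine (norm_sub_le _ _).trans ((add_le_add h9 h10).trans (le_of_eq ?_))
      ring
    rw [h7]
    refine h8.trans ?_
    have e : 2 - (0 + 1) = 1 := by norm_num
    rw [e, pow_one]
    exact mul_le_mul_of_nonneg_right (by linarith) hr0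
  · have h1 := (h0 i).2 (l + 1 + 1) hl
    have e : 2 - (l + 1 + 1) = 0 := by omega
    rw [e]
    simp at h1 ⊢
    have : (0 : ℝ) ≤ (n + 1) * C := by positivity
    linarith

/-! ## Derivatives of matrix functions -/

theorem um_dyk {f : ι → KC n N} (h : UM r zz W (K + 1) j f) (b : Fin n) :
    UM r zz W K (j - 1) (fun i => dyk b (f i)) := fun c d => (h c d).fd (0, Pi.single b 1)

theorem um_dxk {f : ι → KC n N} (h : UM r zz W (K + 1) j f) (b : Fin n) :
    UM r zz W K (j - 1) (fun i => dxk b (f i)) := fun c d => (h c d).fd (Pi.single b 1, 0)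

theorem um_pdm {y : ι → V n} {f : ι → MC n N} (h : UM r y W (K + 1) j f) (b : Fin n) :
    UM r y W K (j - 1) (fun i => pdm b (f i)) := fun c d => (h c d).fd (Pi.single b 1)

end Vale.Agent.P088.S4.H871
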