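import Vale.Agent.P088.R2.H871.Base

/-!
# P088, stage 4, row X-KB: derivatives of the cubic term
-/

open MeasureTheory Set
open scoped ContDiff Matrix NNReal

noncomputable section

namespace Vale.Agent.P088.S4.H871

open Vale.Agent.P088.LR Vale.Agent.P088.LR.U Vale.Agent.P088.LR.H158
open Vale.Agent.P088.HY (VV)
open Vale.Agent.P088.PJ
open Vale.Agent.P088.PJ.H696 (Bd BM qL qL_apply qL_norm fd_eq taylor)

variable {ι : Type*} {n N : ℕ} {r : ι → Set.Icc (0 : ℝ) 1} {zz : ι → VV n} {W : ι → ℝ≥0}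
  {K j : ℕ}

/-- `∂_{y_i}` of a scalar function -/
def dy (i : Fin n) (f : VV n → ℂ) (z : VV n) : ℂ := fderiv ℝ f z (0, Pi.single i 1)

theorem da {f : VV n → ℂ} (h : ContDiff ℝ ∞ f) (z : VV n) : DifferentiableAt ℝ f z :=
  (h.differentiable (by decide)).differentiableAt

theorem dy_sm {f : VV n → ℂ} (h : ContDiff ℝ ∞ f) (i : Fin n) : ContDiff ℝ ∞ (dy i f) :=
  (h.fderiv_right (m := ∞) (mod_cast le_top)).clm_apply contDiff_const

theorem dy_mul {f g : VV n → ℂ} (hf : ContDiff ℝ ∞ f) (hg : ContDiff ℝ ∞ g) (i : Fin n)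
    (z : VV n) : dy i (fun z => f z * g z) z = dy i f z * g z + f z * dy i g z := by
  unfold dy
  have h : fderiv ℝ (fun z => f z * g z) z = _ := fderiv_mul (da hf z) (da hg z)
  rw [h]
  simp only [_root_.add_apply, _root_.smul_apply, smul_eq_mul]
  ring

theorem dy_add {f g : VV n → ℂ} (hf : ContDiff ℝ ∞ f) (hg : ContDiff ℝ ∞ g) (i : Fin n)
    (z : VV n) : dy i (fun z => f z + g z) z = dy i f z + dy i g z := by
  unfold dy
  have h : fderiv ℝ (fun z => f z + g z) z = _ := fderiv_add (da hf z) (da hg z)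
  rw [h]
  rfl

theorem dy_sub {f g : VV n → ℂ} (hf : ContDiff ℝ ∞ f) (hg : ContDiff ℝ ∞ g) (i : Fin n)
    (z : VV n) : dy i (fun z => f z - g z) z = dy i f z - dy i g z := by
  unfold dy
  have h : fderiv ℝ (fun z => f z - g z) z = _ := fderiv_sub (da hf z) (da hg z)
  rw [h]
  rfl

theorem dy_cm {f : VV n → ℂ} (hf : ContDiff ℝ ∞ f) (k : ℂ) (i : Fin n)
    (z : VV n) : dy i (fun z => k * f z) z = k * dy i f z := by
  unfold dy
  have h : fderiv ℝ (fun z => k * f z) z = _ := fderiv_const_mul (da hf z) k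
  rw [h]
  rfl

theorem dy_sum {κ : Type*} (s : Finset κ) {f : κ → VV n → ℂ} (hf : ∀ c, ContDiff ℝ ∞ (f c))
    (i : Fin n) (z : VV n) : dy i (fun z => ∑ c ∈ s, f c z) z = ∑ c ∈ s, dy i (f c) z := by
  unfold dy
  have h : fderiv ℝ (fun z => ∑ c ∈ s, f c z) z = _ := fderiv_fun_sum fun c _ => da (hf c) z
  rw [h]
  simp only [_root_.sum_apply]

theorem q_sm (b : Fin n) : ContDiff ℝ ∞ (q b : VV n → ℂ) := (qL b).contDiff

theorem dy_q (i b : Fin n) (z : VV n) : dy i (q b) z = -(if b = i then 1 else 0) := by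
  have h : fderiv ℝ (q b) z = qL b := (qL b).hasFDerivAt.fderiv
  unfold dy
  rw [h, qL_apply]
  simp only [Pi.zero_apply, zero_sub]
  rcases eq_or_ne b i with rfl | hb
  · simp
  · simp [hb]

theorem sn_sm {f : V n → ℂ} (hf : ContDiff ℝ ∞ f) : ContDiff ℝ ∞ (fun z : VV n => f z.2) :=
  hf.comp contDiff_snd

theorem dy_snd {f : V n → ℂ} (hf : ContDiff ℝ ∞ f) (i : Fin n) (z : VV n) :
    dy i (fun z => f z.2) z = pd i f z.2 := by
  have h : HasFDerivAt (fun z : VV n => f z.2)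
      ((fderiv ℝ f z.2).comp (ContinuousLinearMap.snd ℝ (V n) (V n))) z :=
    ((hf.differentiable (by decide)).differentiableAt (x := z.2)).hasFDerivAt.comp z
      hasFDerivAt_snd
  unfold dy
  rw [h.fderiv]
  rfl

/-! ## The quadratic and the linear form -/

/-- the quadratic form -/
def Qf (T : Fin n → Fin n → V n → ℂ) (z : VV n) : ℂ := ∑ a, ∑ b, T a b z.2 * (q a z * q b z)

/-- the linear form -/
def Ef (u : Fin n → V n → ℂ) (z : VV n) : ℂ := ∑ b, u b z.2 * q b z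

theorem Ef_sm {u : Fin n → V n → ℂ} (hu : ∀ b, ContDiff ℝ ∞ (u b)) : ContDiff ℝ ∞ (Ef u) :=
  ContDiff.sum fun b _ => (sn_sm (hu b)).mul (q_sm b)

theorem Qf_sm {T : Fin n → Fin n → V n → ℂ} (hT : ∀ a b, ContDiff ℝ ∞ (T a b)) :
    ContDiff ℝ ∞ (Qf T) :=
  ContDiff.sum fun a _ => ContDiff.sum fun b _ => (sn_sm (hT a b)).mul ((q_sm a).mul (q_sm b))

theorem dy_Ef {u : Fin n → V n → ℂ} (hu : ∀ b, ContDiff ℝ ∞ (u b)) (i : Fin n) (z : VV n) :
    dy i (Ef u) z = Ef (fun b => pd i (u b)) z - u i z.2 := by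
  have h1 : dy i (Ef u) z = ∑ b, dy i (fun z => u b z.2 * q b z) z :=
    dy_sum _ (fun b => (sn_sm (hu b)).mul (q_sm b)) i z
  rw [h1]
  have h2 : ∀ b, dy i (fun z => u b z.2 * q b z) z =
      pd i (u b) z.2 * q b z - (if b = i then u b z.2 else 0) := by
    intro b
    rw [dy_mul (sn_sm (hu b)) (q_sm b), dy_snd (hu b), dy_q]
    split_ifs <;> ring
  simp only [h2]
  rw [Finset.sum_sub_distrib, Finset.sum_ite_eq' Finset.univ i fun b => u b z.2]
  simp [Ef]

theorem dy_Qf {T : Fin n → Fin n → V n → ℂ} (hT : ∀ a b, ContDiff ℝ ∞ (T a b))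
    (hs : ∀ a b, T a b = T b a) (i : Fin n) (z : VV n) :
    dy i (Qf T) z = Qf (fun a b => pd i (T a b)) z - 2 * Ef (T i) z := by
  have h1 : dy i (Qf T) z = ∑ a, ∑ b, dy i (fun z => T a b z.2 * (q a z * q b z)) z := by
    have h := dy_sum (n := n) Finset.univ (f := fun a z => ∑ b, T a b z.2 * (q a z * q b z))
      (fun a => ContDiff.sum fun b _ => (sn_sm (hT a b)).mul ((q_sm a).mul (q_sm b))) i z
    refine h.trans (Finset.sum_congr rfl fun a _ => ?_)
    exact dy_sum _ (fun b => (sn_sm (hT a b)).mul ((q_sm a).mul (q_sm b))) i z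
  rw [h1]
  have h2 : ∀ a b, dy i (fun z => T a b z.2 * (q a z * q b z)) z =
      pd i (T a b) z.2 * (q a z * q b z) - (if a = i then T i b z.2 * q b z else 0)
        - (if b = i then T i a z.2 * q a z else 0) := by
    intro a b
    rw [dy_mul (sn_sm (hT a b)) ((q_sm a).mul (q_sm b)), dy_snd (hT a b),
      dy_mul (q_sm a) (q_sm b), dy_q, dy_q]
    rcases eq_or_ne a i with ha | ha <;> rcases eq_or_ne b i with hb | hb
    · subst ha
      subst hb
      simp
      ring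
    · subst ha
      simp [hb]
      ring
    · subst hb
      simp [ha]
      rw [hs a b]
      ring
    · simp [ha, hb]
  simp only [h2, Finset.sum_sub_distrib]
  have h3 : ∑ a, ∑ b, (if a = i then T i b z.2 * q b z else 0) = Ef (T i) z := by
    rw [Finset.sum_comm]
    refine Finset.sum_congr rfl fun b _ => ?_
    rw [Finset.sum_ite_eq' Finset.univ i fun _ => T i b z.2 * q b z]
    simp
  have h4 : ∑ a, ∑ b, (if b = i then T i a z.2 * q a z else 0) = Ef (T i) z := by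
    refine Finset.sum_congr rfl fun a _ => ?_
    rw [Finset.sum_ite_eq' Finset.univ i fun _ => T i a z.2 * q a z]
    simp
  rw [h3, h4]
  unfold Qf
  ring

theorem dy_fun {f : VV n → ℂ} {g : VV n → ℂ} (h : ∀ z, f z = g z) (i : Fin n) (z : VV n) :
    dy i f z = dy i g z := by
  have : f = g := funext h
  rw [this]

theorem dyy_Qf {T : Fin n → Fin n → V n → ℂ} (hT : ∀ a b, ContDiff ℝ ∞ (T a b))
    (hs : ∀ a b, T a b = T b a) (i j : Fin n) (z : VV n) :
    dy i (dy j (Qf T)) z = Qf (fun a b => pd i (pd j (T a b))) z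
      - 2 * Ef (fun b => pd j (T i b)) z - 2 * Ef (fun b => pd i (T j b)) z + 2 * T j i z.2 := by
  have hT' : ∀ k a b, ContDiff ℝ ∞ (pd k (T a b)) := fun k a b => pd_sm (hT a b) k
  rw [dy_fun (fun z => dy_Qf hT hs j z) i z,
    dy_sub (Qf_sm (hT' j)) (contDiff_const.mul (Ef_sm (hT j))), dy_cm (Ef_sm (hT j)),
    dy_Qf (hT' j) (fun a b => by rw [hs a b]), dy_Ef (hT j)]
  ring

theorem dyy_mul {f g : VV n → ℂ} (hf : ContDiff ℝ ∞ f) (hg : ContDiff ℝ ∞ g) (i j : Fin n)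
    (z : VV n) : dy i (dy j (fun z => f z * g z)) z = dy i (dy j f) z * g z + dy j f z * dy i g z
      + (dy i f z * dy j g z + f z * dy i (dy j g) z) := by
  rw [dy_fun (fun z => dy_mul hf hg j z) i z,
    dy_add ((dy_sm hf j).mul hg) (hf.mul (dy_sm hg j)), dy_mul (dy_sm hf j) hg,
    dy_mul hf (dy_sm hg j)]

/-- the remainder of the second derivative -/
def Sr (T : Fin n → Fin n → V n → ℂ) (u : Fin n → V n → ℂ) (i j : Fin n) (z : VV n) : ℂ :=
  (Qf (fun a b => pd i (pd j (T a b))) z - 2 * Ef (fun b => pd j (T i b)) z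
      - 2 * Ef (fun b => pd i (T j b)) z) * Ef u z
    + (Qf (fun a b => pd j (T a b)) z * dy i (Ef u) z - 2 * (Ef (T j) z * Ef (fun b => pd i (u b)) z))
    + (Qf (fun a b => pd i (T a b)) z * dy j (Ef u) z - 2 * (Ef (T i) z * Ef (fun b => pd j (u b)) z))
    + Qf T z * dy i (dy j (Ef u)) z

theorem dyy_QE {T : Fin n → Fin n → V n → ℂ} (hT : ∀ a b, ContDiff ℝ ∞ (T a b))
    (hs : ∀ a b, T a b = T b a) {u : Fin n → V n → ℂ} (hu : ∀ b, ContDiff ℝ ∞ (u b))
    (i j : Fin n) (z : VV n) : dy i (dy j (fun z => Qf T z * Ef u z)) z = Sr T u i j z +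
      (2 * T j i z.2 * Ef u z + 2 * Ef (T j) z * u i z.2 + 2 * Ef (T i) z * u j z.2) := by
  rw [dyy_mul (Qf_sm hT) (Ef_sm hu), dyy_Qf hT hs, dy_Qf hT hs, dy_Qf hT hs]
  unfold Sr
  rw [dy_Ef hu, dy_Ef hu]
  ring

/-! ## Orders -/

theorem uo_Ef (hr : ∀ i, (r i : ℝ) = ‖(zz i).1 - (zz i).2‖) {u : ι → Fin n → V n → ℂ}
    (h : ∀ b, UO r (fun i => (zz i).2) W K 0 (fun i => u i b)) :
    UO r zz W K 1 (fun i => Ef (u i)) :=
  UO.sum Finset.univ fun b _ => (uo_snd (h b)).mulc (uo_q hr b)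

theorem uo_Qf (hr : ∀ i, (r i : ℝ) = ‖(zz i).1 - (zz i).2‖) {T : ι → Fin n → Fin n → V n → ℂ}
    (h : ∀ a b, UO r (fun i => (zz i).2) W K 0 (fun i => T i a b)) :
    UO r zz W K 2 (fun i => Qf (T i)) :=
  UO.sum Finset.univ fun a _ => UO.sum Finset.univ fun b _ =>
    (uo_snd (h a b)).mulc ((uo_q hr a).cmul (uo_q hr b))

theorem uo_pd {y : ι → V n} {f : ι → V n → ℂ} (h : UO r y W (K + 1) j f) (b : Fin n) :
    UO r y W K (j - 1) (fun i => pd b (f i)) := h.fd (Pi.single b 1)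

theorem uo_dy {f : ι → VV n → ℂ} (h : UO r zz W (K + 1) j f) (b : Fin n) :
    UO r zz W K (j - 1) (fun i => dy b (f i)) := h.fd (0, Pi.single b 1)

theorem uo_c {f : ι → VV n → ℂ} (h : UO r zz W K j f) (c : ℂ) :
    UO r zz W K j (fun i z => c * f i z) :=
  ((UO.const (r := r) (z := zz) (K := K) c).cmul h).mono le_rfl (by omega)

theorem uo_Sr (hr : ∀ i, (r i : ℝ) = ‖(zz i).1 - (zz i).2‖) {T : ι → Fin n → Fin n → V n → ℂ}
    (hT : ∀ a b, UO r (fun i => (zz i).2) 1 (K + 2) 0 (fun i => T i a b))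
    {u : ι → Fin n → V n → ℂ}
    (hu : ∀ b, UO r (fun i => (zz i).2) W (K + 2) 0 (fun i => u i b)) (i j : Fin n) :
    UO r zz W K 2 (fun c => Sr (T c) (u c) i j) := by
  have hT1 : ∀ k a b, UO r (fun i => (zz i).2) 1 (K + 1) 0 (fun i => pd k (T i a b)) :=
    fun k a b => uo_pd (hT a b) k
  have hT2 : ∀ k l a b, UO r (fun i => (zz i).2) 1 K 0 (fun i => pd k (pd l (T i a b))) :=
    fun k l a b => uo_pd (hT1 l a b) k
  have hu1 : ∀ k b, UO r (fun i => (zz i).2) W (K + 1) 0 (fun i => pd k (u i b)) :=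
    fun k b => uo_pd (hu b) k
  have hE := uo_Ef hr hu
  have hE1 : ∀ k, UO r zz W (K + 1) 0 (fun c => dy k (Ef (u c))) := fun k => uo_dy hE k
  have hE2 : UO r zz W K 0 (fun c => dy i (dy j (Ef (u c)))) := uo_dy (hE1 j) i
  have a1 : UO r zz 1 K 1 (fun c z => Qf (fun a b => pd i (pd j (T c a b))) z
      - 2 * Ef (fun b => pd j (T c i b)) z - 2 * Ef (fun b => pd i (T c j b)) z) :=
    (((uo_Qf hr (hT2 i j)).mono le_rfl (by norm_num)).sub
      (uo_c ((uo_Ef hr fun b => hT1 j i b).mono (by omega) le_rfl) 2)).sub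
      (uo_c ((uo_Ef hr fun b => hT1 i j b).mono (by omega) le_rfl) 2)
  have a2 : ∀ k l, UO r zz W K 2 (fun c z => Qf (fun a b => pd k (T c a b)) z * dy l (Ef (u c)) z
      - 2 * (Ef (T c k) z * Ef (fun b => pd l (u c b)) z)) := fun k l =>
    ((((uo_Qf hr (hT1 k)).cmul (hE1 l))).mono (by omega) (by norm_num)).sub
      (uo_c ((((uo_Ef hr (hT k)).mono (by omega) le_rfl).cmul (uo_Ef hr (hu1 l))).mono
        (by omega) (by norm_num)) 2)
  have a3 : UO r zz W K 2 (fun c z => Qf (T c) z * dy i (dy j (Ef (u c))) z) :=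
    (((uo_Qf hr hT).mono (by omega) le_rfl).cmul hE2).mono le_rfl (by norm_num)
  have a4 := a1.cmul (hE.mono (K' := K) (by omega) le_rfl)
  exact (((a4.mono le_rfl (by norm_num)).add (a2 j i)).add (a2 i j)).add a3

/-! ## Algebra -/

theorem alg (S T : Fin n → Fin n → ℂ) (Q u : Fin n → ℂ) (hS : ∀ i j, S i j = S j i)
    (hT : ∀ i j, T i j = T j i) {c : ℂ} (hc : c ≠ 0) :
    ∑ i, ∑ j, S i j * (-(1 / (2 * c)) * (2 * T j i * (∑ b, u b * Q b)
      + 2 * (∑ b, T j b * Q b) * u i + 2 * (∑ b, T i b * Q b) * u j))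
    + ∑ b, Q b * ∑ l, ((∑ i, ∑ j, S i j * T i j) * (if b = l then 1 else 0)
      + 2 * ∑ i, S l i * T i b) / c * u l = 0 := by
  have h1 : ∑ i, ∑ j, S i j * ((∑ b, T i b * Q b) * u j) =
      ∑ i, ∑ j, S i j * ((∑ b, T j b * Q b) * u i) := by
    rw [Finset.sum_comm]
    exact Finset.sum_congr rfl fun i _ => Finset.sum_congr rfl fun j _ => by rw [hS]
  have h2 : ∑ b, Q b * ∑ l, (∑ i, S l i * T i b) * u l =
      ∑ i, ∑ j, S i j * ((∑ b, T j b * Q b) * u i) := by
    simp only [Finset.mul_sum, Finset.sum_mul]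
    rw [Finset.sum_comm]
    refine Finset.sum_congr rfl fun l _ => ?_
    rw [Finset.sum_comm]
    exact Finset.sum_congr rfl fun i _ => Finset.sum_congr rfl fun b _ => by ring
  have h3 : ∑ b, Q b * ∑ l, ((∑ i, ∑ j, S i j * T i j) * (if b = l then 1 else 0)) * u l =
      (∑ i, ∑ j, S i j * T i j) * ∑ b, u b * Q b := by
    rw [Finset.mul_sum]
    refine Finset.sum_congr rfl fun b _ => ?_
    have : ∀ l, ((∑ i, ∑ j, S i j * T i j) * (if b = l then (1 : ℂ) else 0)) * u l =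
        if b = l then (∑ i, ∑ j, S i j * T i j) * u l else 0 := by
      intro l
      split_ifs <;> simp
    simp only [this]
    rw [Finset.sum_ite_eq Finset.univ b fun l => (∑ i, ∑ j, S i j * T i j) * u l]
    simp
    ring
  set X := ∑ i, ∑ j, S i j * ((∑ b, T j b * Q b) * u i) with hX
  set E := ∑ b, u b * Q b with hE
  set A := ∑ i, ∑ j, S i j * T i j with hA
  have h4 : ∑ i, ∑ j, S i j * (-(1 / (2 * c)) * (2 * T j i * E
      + 2 * (∑ b, T j b * Q b) * u i + 2 * (∑ b, T i b * Q b) * u j)) =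
      -(1 / (2 * c)) * (2 * (A * E) + 2 * X + 2 * X) := by
    have e1 : ∀ i j, S i j * (-(1 / (2 * c)) * (2 * T j i * E
      + 2 * (∑ b, T j b * Q b) * u i + 2 * (∑ b, T i b * Q b) * u j)) =
        -(1 / (2 * c)) * (2 * (S i j * T i j * E)) +
        -(1 / (2 * c)) * (2 * (S i j * ((∑ b, T j b * Q b) * u i))) +
        -(1 / (2 * c)) * (2 * (S i j * ((∑ b, T i b * Q b) * u j))) := by
      intro i j
      rw [hT j i]
      ring
    have hAE : ∑ i, ∑ j, S i j * T i j * E = A * E := by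
      rw [hA, Finset.sum_mul]
      exact Finset.sum_congr rfl fun i _ => (Finset.sum_mul _ _ _).symm
    simp only [e1, Finset.sum_add_distrib, ← Finset.mul_sum]
    rw [h1, ← hX, hAE]
    ring
  have h5 : ∑ b, Q b * ∑ l, (A * (if b = l then 1 else 0) + 2 * ∑ i, S l i * T i b) / c * u l =
      1 / c * (A * E) + 1 / c * (2 * X) := by
    have e2 : ∀ b l, (A * (if b = l then 1 else 0) + 2 * ∑ i, S l i * T i b) / c * u l =
        1 / c * ((A * (if b = l then 1 else 0)) * u l) +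
        1 / c * (2 * ((∑ i, S l i * T i b) * u l)) := by
      intro b l
      ring
    simp only [e2, Finset.sum_add_distrib, ← Finset.mul_sum, mul_add]
    have e3 : ∀ b (y : ℂ), Q b * (1 / c * y) = 1 / c * (Q b * y) := fun b y => by ring
    have e4 : ∀ b (y : ℂ), Q b * (2 * y) = 2 * (Q b * y) := fun b y => by ring
    simp only [e3, e4, ← Finset.mul_sum]
    rw [h3, h2]
  rw [h4, h5]
  field_simp
  ring

end Vale.Agent.P088.S4.H871
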