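import Vale.Agent.P088.R2.H871.Can
import Vale.Agent.P088.R2.H696.V.Co

/-!
# P088, stage 4, row X-KB: bounds of the coefficients (after helper696's file `Co`)
-/

open MeasureTheory Set
open scoped ContDiff Matrix NNReal

noncomputable section

namespace Vale.Agent.P088.S4.H871

open Vale.Agent.P088.LR Vale.Agent.P088.LR.U Vale.Agent.P088.LR.H158
open Vale.Agent.P088.HY (VV)
open Vale.Agent.P088.PJ
open Vale.Agent.P088.PJ.H696 (Bd BM CB bd_re bm_cl bd_cl bm_sm bm_pdm pdm_subc)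

variable {n N : ℕ}

theorem pd_re {f : V n → ℝ} (hf : ContDiff ℝ ∞ f) (i : Fin n) (x : V n) :
    pd i (fun x => (f x : ℂ)) x = ((pd i f x : ℝ) : ℂ) := by
  have h : HasFDerivAt (fun x => (f x : ℂ)) (Complex.ofRealCLM.comp (fderiv ℝ f x)) x :=
    Complex.ofRealCLM.hasFDerivAt.comp x
      ((hf.differentiable (by decide)).differentiableAt (x := x)).hasFDerivAt
  unfold pd
  rw [h.fderiv]
  rfl

theorem coef (n N m : ℕ) : ∃ C δ₀ : ℝ, 1 ≤ C ∧ 0 < δ₀ ∧ δ₀ ≤ 1 ∧ ∀ δ, 0 ≤ δ → δ ≤ δ₀ →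
    ∀ k, m + 1 ≤ k → ∀ (Ω : Set (V n)) (s : MF n) (P : MC n N) (G : Fin n → MC n N),
    Da k δ Ω s P G → CB m C δ s P G ∧ BM univ m 2 P ∧ ∀ x, IsUnit (P x).det := by
  obtain ⟨Ci, εi, hCi, hεi, hinv⟩ := H91.inv n N m
  set a : ℝ := 2 ^ (m + 1) * 2 + 1 with ha
  set b : ℝ := n * (2 ^ m * 2) with hb
  set d : ℝ := Ci + 1 with hd
  set e : ℝ := N * (2 ^ m * (d * (n * a + b))) with he
  have ha0 : 0 ≤ a := by positivity
  have hb0 : 0 ≤ b := by positivity
  have hd0 : 0 ≤ d := by positivity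
  have he0 : 0 ≤ e := by positivity
  have h20 : (0 : ℝ) ≤ 2 ^ m * (2 * 2) := by positivity
  refine ⟨2 + 2 ^ m * (2 * 2) + a + b + d + e, min 1 εi, by linarith, lt_min one_pos hεi,
    min_le_left _ _, fun δ hδ0 hδ1 k hk Ω s P G D => ?_⟩
  have hδ : δ ≤ 1 := hδ1.trans (min_le_left _ _)
  set C : ℝ := 2 + 2 ^ m * (2 * 2) + a + b + d + e with hC
  have hsl : ∀ i j, Bd univ (m + 1) δ
      (fun x => ((s x i j - (1 : Matrix (Fin n) (Fin n) ℝ) i j : ℝ) : ℂ)) := fun i j =>
    bd_re ((D.ss i j).sub contDiff_const) (D.cs i j) hk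
  have hs : ∀ i j, Bd univ (m + 1) 2 (fun x => (s x i j : ℂ)) := by
    intro i j
    have h1 := (hsl i j).add (Bd.const (E := V n) (O := univ) (K := m + 1)
      (((1 : Matrix (Fin n) (Fin n) ℝ) i j : ℝ) : ℂ))
    have e1 : (fun x => ((s x i j - (1 : Matrix (Fin n) (Fin n) ℝ) i j : ℝ) : ℂ) +
        (((1 : Matrix (Fin n) (Fin n) ℝ) i j : ℝ) : ℂ)) = fun x => (s x i j : ℂ) := by
      funext x
      push_cast
      ring
    rw [e1] at h1
    refine h1.le ?_ le_rfl Subset.rfl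
    have h2 : ‖(((1 : Matrix (Fin n) (Fin n) ℝ) i j : ℝ) : ℂ)‖ ≤ 1 := by
      rcases eq_or_ne i j with rfl | hij
      · simp
      · simp [Matrix.one_apply_ne hij]
    linarith
  have hP1 : BM univ (m + 1) δ (fun x => P x - 1) :=
    bm_cl (fun a b => (D.sP a b).sub contDiff_const) D.cP hk
  have hP : BM univ (m + 1) 2 P := by
    have h1 := hP1.add (BM.one (E := V n) (O := univ) (K := m + 1))
    simp only [sub_add_cancel] at h1
    exact h1.le (by linarith) le_rfl Subset.rfl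
  have hG : ∀ i, BM univ (m + 1) δ (G i) := fun i => bm_cl (D.sG i) (D.cG i) hk
  have hT : ∀ i j, BM univ m (2 ^ m * (2 * 2)) (TP s P i j) := fun i j =>
    BM.smul ((hs i j).le le_rfl (Nat.le_succ m) Subset.rfl)
      (hP.le le_rfl (Nat.le_succ m) Subset.rfl)
  have hT1 : ∀ i j, BM univ (m + 1) (a * δ) (fun x => TP s P i j x -
      ((1 : Matrix (Fin n) (Fin n) ℝ) i j : ℂ) • (1 : Matrix (Fin N) (Fin N) ℂ)) := by
    intro i j
    have h1 := (BM.smul (hsl i j) hP).add
      (BM.smul (Bd.const (E := V n) (O := univ) (K := m + 1)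
        (((1 : Matrix (Fin n) (Fin n) ℝ) i j : ℝ) : ℂ)) hP1)
    have h2 : (((1 : Matrix (Fin n) (Fin n) ℝ) i j : ℝ) : ℂ) = 0 ∨
        (((1 : Matrix (Fin n) (Fin n) ℝ) i j : ℝ) : ℂ) = 1 := by
      rcases eq_or_ne i j with rfl | hij
      · simp
      · simp [Matrix.one_apply_ne hij]
    rcases h2 with h2 | h2
    · have e1 : (fun x => TP s P i j x -
          ((1 : Matrix (Fin n) (Fin n) ℝ) i j : ℂ) • (1 : Matrix (Fin N) (Fin N) ℂ)) =
          fun x => ((s x i j - (1 : Matrix (Fin n) (Fin n) ℝ) i j : ℝ) : ℂ) • P x := by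
        funext x
        rw [h2, zero_smul, sub_zero]
        push_cast
        rw [h2, sub_zero]
        rfl
      rw [e1]
      refine (BM.smul (hsl i j) hP).le ?_ le_rfl Subset.rfl
      rw [ha]
      nlinarith
    · have e1 : (fun x => TP s P i j x -
          ((1 : Matrix (Fin n) (Fin n) ℝ) i j : ℂ) • (1 : Matrix (Fin N) (Fin N) ℂ)) =
          fun x => ((s x i j - (1 : Matrix (Fin n) (Fin n) ℝ) i j : ℝ) : ℂ) • P x +
            (P x - 1) := by
        funext x
        rw [h2, one_smul]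
        push_cast
        rw [h2, sub_smul, one_smul]
        show (s x i j : ℂ) • P x - 1 = _
        abel
      rw [e1]
      refine ((BM.smul (hsl i j) hP).add hP1).le ?_ le_rfl Subset.rfl
      rw [ha]
      linarith
  have hTs : ∀ i j, SmC (TP s P i j) := fun i j => bm_sm (hT i j)
  have hdT : ∀ l i j, BM univ m (a * δ) (pdm l (TP s P i j)) := by
    intro l i j
    rw [pdm_subc (hTs i j) (((1 : Matrix (Fin n) (Fin n) ℝ) i j : ℂ) • 1) l]
    exact bm_pdm (hT1 i j) l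
  have hκ : ∀ i, BM univ m (b * δ) (kp s G i) := by
    intro i
    have h1 := BM.sum (O := univ) (K := m) (Finset.univ : Finset (Fin n))
      (P := fun j x => (s x i j : ℂ) • G j x) (a := 2 ^ m * (2 * δ)) fun j _ =>
        BM.smul ((hs i j).le le_rfl (Nat.le_succ m) Subset.rfl)
          ((hG j).le le_rfl (Nat.le_succ m) Subset.rfl)
    refine h1.le ?_ le_rfl Subset.rfl
    rw [Finset.card_univ, Fintype.card_fin, hb]
    exact le_of_eq (by ring)
  have hPi : BM univ m d (fun x => (P x)⁻¹) ∧ ∀ x, IsUnit (P x).det := by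
    obtain ⟨hdet, h2, h3⟩ := hinv P D.sP δ hδ0 (hδ1.trans (min_le_right _ _))
      (fun a b l hl x => D.cP a b l (hl.trans (by omega)) x)
    have h1 := (bm_cl (P := fun x => (P x)⁻¹ - 1) (fun a b => (h2 a b).sub contDiff_const)
      h3 le_rfl).add
      (BM.one (E := V n) (O := univ) (K := m))
    simp only [sub_add_cancel] at h1
    refine ⟨h1.le ?_ le_rfl Subset.rfl, hdet⟩
    rw [hd]
    nlinarith
  obtain ⟨hPi, hdet⟩ := hPi
  have hS1 : ∀ j, BM univ m (n * (a * δ) + b * δ)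
      (fun x => ∑ i, pdm i (TP s P i j) x + kp s G j x) := by
    intro j
    have h1 := BM.sum (O := univ) (K := m) (Finset.univ : Finset (Fin n))
      (P := fun i x => pdm i (TP s P i j) x) (a := a * δ) fun i _ => hdT i i j
    rw [Finset.card_univ, Fintype.card_fin] at h1
    exact h1.add (hκ j)
  have hS2 : ∀ j, BM univ m (n * (a * δ) + b * δ)
      (fun x => ∑ i, pdm i (TP s P i j) x - kp s G j x) := by
    intro j
    have h1 := BM.sum (O := univ) (K := m) (Finset.univ : Finset (Fin n))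
      (P := fun i x => pdm i (TP s P i j) x) (a := a * δ) fun i _ => hdT i i j
    rw [Finset.card_univ, Fintype.card_fin] at h1
    exact h1.sub (hκ j)
  have hCe : e * δ ≤ C * δ := mul_le_mul_of_nonneg_right (by linarith) hδ0
  refine ⟨?_, hP.le le_rfl (Nat.le_succ m) Subset.rfl, hdet⟩
  refine ⟨fun i j => (hs i j).le (by linarith) (Nat.le_succ m) Subset.rfl,
    fun i j => (hsl i j).le le_rfl (Nat.le_succ m) Subset.rfl,
    fun i j => (hT i j).le (by linarith) le_rfl Subset.rfl,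
    fun l i j => (hdT l i j).le (mul_le_mul_of_nonneg_right (by linarith) hδ0) le_rfl Subset.rfl,
    fun i => (hκ i).le (mul_le_mul_of_nonneg_right (by linarith) hδ0) le_rfl Subset.rfl,
    hPi.le (by linarith) le_rfl Subset.rfl, fun j => ?_, fun j => ?_⟩
  · refine (hPi.mul (hS1 j)).le (le_trans (le_of_eq ?_) hCe) le_rfl Subset.rfl
    rw [he]
    ring
  · refine ((hS2 j).mul hPi).le (le_trans (le_of_eq ?_) hCe) le_rfl Subset.rfl
    rw [he]
    ring

/-- the inverse of the metric -/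
theorem tau_bd (n m : ℕ) : ∃ C δ₀ : ℝ, 0 ≤ C ∧ 0 < δ₀ ∧ δ₀ ≤ 1 ∧ ∀ δ, 0 ≤ δ → δ ≤ δ₀ →
    ∀ s τ : MF n, SmM s → (∀ i j, Cl m δ (fun x => s x i j - (1 : Matrix (Fin n) (Fin n) ℝ) i j)) →
    (∀ x, s x * τ x = 1) → ∀ i j, Bd univ m C (fun x => (τ x i j : ℂ)) := by
  obtain ⟨Ci, εi, hCi, hεi, hinv⟩ := H91.inv n n m
  refine ⟨Ci + 1, min 1 εi, by linarith, lt_min one_pos hεi, min_le_left _ _,
    fun δ hδ0 hδ1 s τ hs cs hst i j => ?_⟩
  have hδ : δ ≤ 1 := hδ1.trans (min_le_left _ _)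
  set P : MC n n := fun x => (s x).map ((↑) : ℝ → ℂ) with hP
  have hPs : SmC P := fun a b => Complex.ofRealCLM.contDiff.comp (hs a b)
  have h1 : ClC m δ (fun x => P x - 1) := by
    intro a b l hl x
    have h2 := (bd_re ((hs a b).sub contDiff_const) (cs a b) le_rfl).2 l hl x (mem_univ _)
    have e : (fun x => (P x - 1) a b) =
        fun x => ((s x a b - (1 : Matrix (Fin n) (Fin n) ℝ) a b : ℝ) : ℂ) := by
      funext x
      show ((s x a b : ℝ) : ℂ) - (1 : Matrix (Fin n) (Fin n) ℂ) a b = _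
      rcases eq_or_ne a b with rfl | hab
      · simp
      · simp [Matrix.one_apply_ne hab]
    rw [e]
    exact h2
  obtain ⟨-, h2, h3⟩ := hinv P hPs δ hδ0 (hδ1.trans (min_le_right _ _)) h1
  have h4 := ((bm_cl (P := fun x => (P x)⁻¹ - 1) (fun a b => (h2 a b).sub contDiff_const)
      h3 le_rfl).add (BM.one (E := V n) (O := univ) (K := m)))
  simp only [sub_add_cancel] at h4
  have h5 := h4.le (b := Ci + 1) (by nlinarith) le_rfl Subset.rfl
  have h6 : ∀ x, (P x)⁻¹ = (τ x).map ((↑) : ℝ → ℂ) := by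
    intro x
    refine Matrix.inv_eq_right_inv ?_
    ext a b
    rw [Matrix.mul_apply]
    have h7 := congrFun (congrFun (hst x) a) b
    rw [Matrix.mul_apply] at h7
    have h8 : (∑ c, P x a c * (τ x).map ((↑) : ℝ → ℂ) c b) =
        ((∑ c, s x a c * τ x c b : ℝ) : ℂ) := by
      push_cast
      rfl
    rw [h8, h7]
    rcases eq_or_ne a b with rfl | hab
    · simp
    · simp [Matrix.one_apply_ne hab]
  have h9 := h5 i j
  have e : (fun x => (P x)⁻¹ i j) = fun x => (τ x i j : ℂ) := by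
    funext x
    rw [h6, Matrix.map_apply]
  rwa [e] at h9

/-- the inverse of a symmetric matrix -/
theorem tau_sy {s τ : Matrix (Fin n) (Fin n) ℝ} (hs : s.IsSymm) (h : s * τ = 1) :
    ∀ i j, τ i j = τ j i := by
  have h1 : τᵀ * s = 1 := by
    have h2 := congrArg Matrix.transpose h
    rw [Matrix.transpose_mul, hs.eq, Matrix.transpose_one] at h2
    exact h2
  have h3 : τᵀ = τ := by
    calc τᵀ = τᵀ * (s * τ) := by rw [h, mul_one]
      _ = τ := by rw [← mul_assoc, h1, one_mul]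
  intro i j
  calc τ i j = τᵀ j i := rfl
    _ = τ j i := by rw [h3]

/-- derivatives of the metric -/
theorem pd_bd {k m : ℕ} {δ : ℝ} {s : MF n} (hs : SmM s)
    (cs : ∀ i j, Cl k δ (fun x => s x i j - (1 : Matrix (Fin n) (Fin n) ℝ) i j))
    (hm : m + 1 ≤ k) (b i j : Fin n) :
    Bd univ m δ (fun x => ((pd b (fun y => s y i j) x : ℝ) : ℂ)) := by
  have h1 : Bd univ (m + 1) δ (fun x => s x i j - (1 : Matrix (Fin n) (Fin n) ℝ) i j) :=
    ⟨(hs i j).sub contDiff_const, fun l hl x _ => cs i j l (hl.trans hm) x⟩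
  have h2 := h1.fd (Pi.single b 1) (by
    refine (pi_norm_le_iff_of_nonneg zero_le_one).mpr fun j => ?_
    rcases eq_or_ne j b with rfl | hj
    · rw [Pi.single_eq_same, norm_one]
    · rw [Pi.single_eq_of_ne hj, norm_zero]
      exact zero_le_one)
  have e : (fun x => fderiv ℝ (fun x => s x i j - (1 : Matrix (Fin n) (Fin n) ℝ) i j) x
      (Pi.single b 1)) = pd b (fun y => s y i j) := by
    funext x
    rw [fderiv_sub_const]
    rfl
  rw [e] at h2
  exact bd_re h2.1 (fun l hl x => h2.2 l hl x (mem_univ _)) le_rfl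

end Vale.Agent.P088.S4.H871
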