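import Vale.Agent.P088.R2.H871.Coe

/-!
# P088, stage 4, row X-KB: the family of all configurations
-/

open MeasureTheory Set
open scoped ContDiff Matrix NNReal

noncomputable section

namespace Vale.Agent.P088.S4.H871

open Vale.Agent.P088.LR Vale.Agent.P088.LR.U Vale.Agent.P088.LR.H158
open Vale.Agent.P088.HY (VV)
open Vale.Agent.P088.PJ
open Vale.Agent.P088.PJ.H696 (Bd BM CB bd_re bm_cl bd_cl bm_sm bm_pdm pdm_subc)

variable {n N : ℕ}

/-- A configuration. -/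
structure Cf (n N k : ℕ) (δ : ℝ) (l : ℕ) where
  O : Set (V n)
  Kc : Set (V n)
  j₀ : Fin N
  s₁ : MF n
  s₂ : MF n
  P₁ : MC n N
  P₂ : MC n N
  G₁ : Fin n → MC n N
  G₂ : Fin n → MC n N
  β : Fin n → MC n N
  Y : Fin n → MC n N
  D : Fin n → MC n N
  rl : RL k δ O Kc j₀ s₁ s₂ P₁ P₂ G₁ G₂ β Y D
  Γ : Fin n → Fin n → MC n N
  ig : IG k δ Y Γ
  τ : MF n
  st : SmM τ
  te : ∀ x, s₁ x * τ x = 1
  k2 : Fin n → Fin n → MC n N
  tk : Tk s₁ k2
  z : VV n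
  hz : ‖z.1 - z.2‖ ≤ 1
  B : ℝ≥0
  hB : ∀ i j a b, ∀ m ≤ l + 2, ‖iteratedFDeriv ℝ m (fun x => k2 i j x a b) z.2‖ ≤ B

variable {k l m : ℕ} {δ C : ℝ}

/-- the distance -/
def rr (c : Cf n N k δ l) : Set.Icc (0 : ℝ) 1 := ⟨‖c.z.1 - c.z.2‖, norm_nonneg _, c.hz⟩

theorem rr_eq (c : Cf n N k δ l) : (rr c : ℝ) = ‖c.z.1 - c.z.2‖ := rfl

/-- the second point -/
def yy (c : Cf n N k δ l) : V n := c.z.2

/-- Uniform bounds of the coefficients. -/
structure Hy (n N k l m : ℕ) (C δ : ℝ) : Prop where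
  h1 : ∀ c : Cf n N k δ l, CB m C δ c.s₁ c.P₁ c.G₁
  h2 : ∀ c : Cf n N k δ l, CB m C δ c.s₂ c.P₂ c.G₂
  p2 : ∀ c : Cf n N k δ l, BM univ m 2 c.P₂
  u2 : ∀ (c : Cf n N k δ l) x, IsUnit (c.P₂ x).det
  t : ∀ i j, UG univ m (fun (c : Cf n N k δ l) x => (c.τ x i j : ℂ))
  C0 : 0 ≤ C
  d0 : 0 ≤ δ
  d1 : δ ≤ 1
  lm : l + 2 ≤ m
  km : m + 1 ≤ k

/-- the functions of the family on `V n`, at the second point -/
abbrev Yo (j : ℕ) (f : Cf n N k δ l → V n → ℂ) : Prop := UO rr yy 1 j 0 f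

abbrev Ym (j : ℕ) (f : Cf n N k δ l → MC n N) : Prop := UM rr yy 1 j 0 f

abbrev Km (j : ℕ) (f : Cf n N k δ l → MC n N) : Prop := UM rr yy Cf.B j 0 f

section Y

variable (H : Hy n N k l m C δ)
include H

theorem g_s1 (i j : Fin n) : UG univ m (fun (c : Cf n N k δ l) x => (c.s₁ x i j : ℂ)) :=
  ⟨C, H.C0, fun c => (H.h1 c).hs i j⟩

theorem g_s2 (i j : Fin n) : UG univ m (fun (c : Cf n N k δ l) x => (c.s₂ x i j : ℂ)) :=
  ⟨C, H.C0, fun c => (H.h2 c).hs i j⟩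

theorem g_t (i j : Fin n) : UG univ m (fun (c : Cf n N k δ l) x => (c.τ x i j : ℂ)) :=
  H.t i j

theorem g_ps (b i j : Fin n) : UG univ m (fun (c : Cf n N k δ l) x =>
    ((pd b (fun y => c.s₁ y i j) x : ℝ) : ℂ)) :=
  ⟨δ, H.d0, fun c => pd_bd c.rl.d₁.ss c.rl.d₁.cs H.km b i j⟩

theorem g_bL (j : Fin n) (a b : Fin N) :
    UG univ m (fun (c : Cf n N k δ l) x => c.β j x a b) :=
  ⟨δ, H.d0, fun c => bm_cl (c.rl.sβ j) (c.rl.cβ j) ((Nat.le_succ m).trans H.km) a b⟩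

theorem g_bR (j : Fin n) (a b : Fin N) :
    UG univ m (fun (c : Cf n N k δ l) x => bR c.s₂ c.P₂ c.G₂ j x a b) :=
  ⟨C * δ, mul_nonneg H.C0 H.d0, fun c => (H.h2 c).R j a b⟩

theorem g_T (i j : Fin n) (a b : Fin N) :
    UG univ m (fun (c : Cf n N k δ l) x => TP c.s₂ c.P₂ i j x a b) :=
  ⟨C, H.C0, fun c => (H.h2 c).T i j a b⟩

theorem g_dT (e i j : Fin n) (a b : Fin N) :
    UG univ m (fun (c : Cf n N k δ l) x => pdm e (TP c.s₂ c.P₂ i j) x a b) :=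
  ⟨C * δ, mul_nonneg H.C0 H.d0, fun c => (H.h2 c).dT e i j a b⟩

theorem g_kp (i : Fin n) (a b : Fin N) :
    UG univ m (fun (c : Cf n N k δ l) x => kp c.s₂ c.G₂ i x a b) :=
  ⟨C * δ, mul_nonneg H.C0 H.d0, fun c => (H.h2 c).hk i a b⟩

theorem g_P (a b : Fin N) : UG univ m (fun (c : Cf n N k δ l) x => c.P₂ x a b) :=
  ⟨2, by norm_num, fun c => H.p2 c a b⟩

theorem g_Pi (a b : Fin N) : UG univ m (fun (c : Cf n N k δ l) x => (c.P₂ x)⁻¹ a b) :=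
  ⟨C, H.C0, fun c => (H.h2 c).Pi a b⟩

theorem g_Γ (i j : Fin n) (a b : Fin N) : UG univ m (fun (c : Cf n N k δ l) x => c.Γ i j x a b) := by
  refine ⟨2, by norm_num, fun c => ?_⟩
  have h1 : BM univ m δ (fun x => c.Γ i j x - if i = j then 1 else 0) :=
    bm_cl (fun a b => (c.ig.sm i j a b).sub contDiff_const) (c.ig.cl i j)
      ((Nat.le_succ m).trans H.km)
  have h2 : BM (univ : Set (V n)) m 1
      (fun _ => (if i = j then 1 else 0 : Matrix (Fin N) (Fin N) ℂ)) := by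
    rcases eq_or_ne i j with h | h
    · simp only [h, if_true]
      exact BM.one
    · simp only [h, if_false]
      exact BM.const _ fun a b => by simp
  have h3 := h1.add h2
  simp only [sub_add_cancel] at h3
  exact (h3 a b).le (by linarith [H.d1]) le_rfl Subset.rfl

omit H in
theorem km_k2 (i j : Fin n) : Km (l + 2) (fun (c : Cf n N k δ l) => c.k2 i j) := by
  intro a b
  refine ⟨1, zero_le_one, fun c => ⟨c.tk.sm i j a b, fun e he => ?_⟩⟩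
  simp only [Nat.zero_sub, pow_zero, mul_one, one_mul]
  exact c.hB i j a b e he

theorem ym {f : Cf n N k δ l → MC n N} {j : ℕ} (hj : j ≤ l + 2)
    (h : ∀ a b, UG univ m (fun c x => f c x a b)) :
    Ym j f := fun a b => (h a b).uo.mono (hj.trans H.lm) le_rfl

theorem yo {f : Cf n N k δ l → V n → ℂ} {j : ℕ} (hj : j ≤ l + 2) (h : UG univ m f) :
    Yo j f := h.uo.mono (hj.trans H.lm) le_rfl

theorem km_lb (b : Fin n) : Km (l + 2) (fun (c : Cf n N k δ l) => lb c.s₁ c.β c.k2 b) := by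
  have h1 : Km (l + 2) (fun (c : Cf n N k δ l) x => ∑ i, ∑ j,
      ((pd b (fun y => c.s₁ y i j) x : ℝ) : ℂ) • c.k2 i j x) :=
    UM.sum Finset.univ fun i _ => UM.sum Finset.univ fun j _ =>
      UM.csmul (yo H le_rfl (g_ps H b i j)) (km_k2 i j)
  have h2 : Km (l + 2) (fun (c : Cf n N k δ l) x => ∑ j, c.β j x * c.k2 j b x) :=
    UM.sum Finset.univ fun j _ => UM.cmul (ym H le_rfl (g_bL H j)) (km_k2 j b)
  exact h1.add h2

theorem km_ta (b : Fin n) :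
    Km (l + 2) (fun (c : Cf n N k δ l) => ta c.s₁ c.s₂ c.τ c.P₂ c.β c.k2 b) := by
  have h0 : ∀ i j a d, Yo (l + 2) (fun (c : Cf n N k δ l) x => (c.s₂ x i j : ℂ) * (c.τ x a d : ℂ)) :=
    fun i j a d => (yo H le_rfl (g_s2 H i j)).cmul (yo H le_rfl (g_t H a d))
  have h1 : ∀ e, Yo (l + 2) (fun (c : Cf n N k δ l) x => (mbl c.s₂ c.τ b e x : ℂ)) := by
    intro e
    have a1 : Yo (l + 2) (fun (c : Cf n N k δ l) x => ∑ i, ∑ j, (c.s₂ x i j : ℂ) * (c.τ x i j : ℂ)) :=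
      UO.sum Finset.univ fun i _ => UO.sum Finset.univ fun j _ => h0 i j i j
    have a2 : Yo (l + 2) (fun (c : Cf n N k δ l) x => ∑ i, (c.s₂ x e i : ℂ) * (c.τ x i b : ℂ)) :=
      UO.sum Finset.univ fun i _ => h0 e i i b
    have a3 := ((((UO.const (if b = e then (1 : ℂ) else 0)).cmul a1).add
      ((UO.const (2 : ℂ)).cmul a2)))
    have a4 := (UO.const (r := rr (n := n) (N := N) (k := k) (δ := δ) (l := l)) (z := yy)
      (K := l + 2) (1 / ((n : ℂ) + 2))).cmul a3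
    refine (a4.mono le_rfl le_rfl).of_eq fun c x => ?_
    unfold mbl
    split_ifs <;> push_cast <;> ring
  have h2 : Km (l + 2) (fun (c : Cf n N k δ l) x =>
      ∑ e, (mbl c.s₂ c.τ b e x : ℂ) • lb c.s₁ c.β c.k2 e x) :=
    UM.sum Finset.univ fun e _ => UM.csmul (h1 e) (km_lb H e)
  exact UM.mulc h2 (ym H le_rfl (g_P H))

theorem km_rh (b : Fin n) : Km (l + 1)
    (fun (c : Cf n N k δ l) => rh c.s₁ c.s₂ c.τ c.P₂ c.G₂ c.β c.k2 b) := by
  have h1 : Km (l + 1) (fun (c : Cf n N k δ l) x => ∑ i, ∑ j,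
      pdm i (c.k2 j b) x * TP c.s₂ c.P₂ i j x) :=
    UM.sum Finset.univ fun i _ => UM.sum Finset.univ fun j _ =>
      UM.mulc (um_pdm (km_k2 j b) i) (ym H (by omega) (g_T H i j))
  have h2 : Km (l + 1) (fun (c : Cf n N k δ l) x => ∑ j, c.k2 j b x *
      (∑ i, pdm i (TP c.s₂ c.P₂ i j) x - kp c.s₂ c.G₂ j x)) :=
    UM.sum Finset.univ fun j _ => UM.mulc ((km_k2 j b).mono (by omega) le_rfl)
      ((UM.sum Finset.univ fun i _ => ym H (by omega) (g_dT H i i j)).sub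
        (ym H (by omega) (g_kp H j)))
  have h3 : Km (l + 1) (fun (c : Cf n N k δ l) => rhb c.s₂ c.P₂ c.G₂ c.k2 b) :=
    (UM.csmul (UO.const (2 : ℂ)) h1).add h2
  exact h3.add ((km_ta H b).mono (by omega) le_rfl)

theorem km_rv (a b : Fin n) : Km l
    (fun (c : Cf n N k δ l) => Rv c.s₂ (bR c.s₂ c.P₂ c.G₂) (c.k2 a b)) := by
  have h1 : Km l (fun (c : Cf n N k δ l) x => ∑ i, ∑ j,
      (c.s₂ x i j : ℂ) • pdm i (pdm j (c.k2 a b)) x) :=
    UM.sum Finset.univ fun i _ => UM.sum Finset.univ fun j _ =>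
      UM.csmul (yo H (by omega) (g_s2 H i j)) (um_pdm (um_pdm (km_k2 a b) j) i)
  have h2 : Km l (fun (c : Cf n N k δ l) x => ∑ i, pdm i (c.k2 a b) x *
      bR c.s₂ c.P₂ c.G₂ i x) :=
    UM.sum Finset.univ fun i _ => UM.mulc ((um_pdm (km_k2 a b) i).mono (by omega) le_rfl)
      (ym H (by omega) (g_bR H i))
  exact h1.add h2

end Y

end Vale.Agent.P088.S4.H871
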