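import Vale.Agent.P088.R2.H871.Fam

/-!
# P088, stage 4, row X-KB: the bounds of the residuals
-/

open MeasureTheory Set
open scoped ContDiff Matrix NNReal

noncomputable section

namespace Vale.Agent.P088.S4.H871

open Vale.Agent.P088.LR Vale.Agent.P088.LR.U Vale.Agent.P088.LR.H158
open Vale.Agent.P088.HY (VV)
open Vale.Agent.P088.PJ
open Vale.Agent.P088.PJ.H696 (Bd BM CB bd_re bm_cl bd_cl bm_sm bm_pdm pdm_subc)

variable {n N k l m : ℕ} {δ C : ℝ}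

/-- the distance condition -/
theorem hrr (c : Cf n N k δ l) : (rr c : ℝ) = ‖(Cf.z c).1 - (Cf.z c).2‖ := rfl

theorem c3_eq (s₁ σ : MF n) (β : Fin n → MC n N) (k2 : Fin n → Fin n → MC n N)
    (z : VV n) (a b : Fin N) : c3 s₁ σ β k2 z a b = -(1 / (2 * ((n : ℂ) + 2))) *
      (Qf (fun i j x => (σ x i j : ℂ)) z * Ef (fun i x => lb s₁ β k2 i x a b) z) := by
  unfold c3 Qf Ef q
  rw [Matrix.smul_apply, Matrix.sum_apply, smul_eq_mul]
  have h1 : ∀ i, (((z.1 i - z.2 i : ℝ) : ℂ) • lb s₁ β k2 i z.2) a b =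
      lb s₁ β k2 i z.2 a b * ((z.1 i - z.2 i : ℝ) : ℂ) := fun i => by
    rw [Matrix.smul_apply, smul_eq_mul, mul_comm]
  simp only [h1]
  have h2 : (((-(∑ c, ∑ d, σ z.2 c d * (z.1 c - z.2 c) * (z.1 d - z.2 d)) / (2 * (n + 2)) : ℝ)) : ℂ)
      = -(1 / (2 * ((n : ℂ) + 2))) *
        ∑ i, ∑ j, (σ z.2 i j : ℂ) * (((z.1 i - z.2 i : ℝ) : ℂ) * ((z.1 j - z.2 j : ℝ) : ℂ)) := by
    have h3 : (∑ c, ∑ d, σ z.2 c d * (z.1 c - z.2 c) * (z.1 d - z.2 d)) =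
        ∑ c, ∑ d, σ z.2 c d * ((z.1 c - z.2 c) * (z.1 d - z.2 d)) :=
      Finset.sum_congr rfl fun _ _ => Finset.sum_congr rfl fun _ _ => by ring
    rw [h3]
    push_cast
    ring
  rw [h2]
  ring

section Z

variable (H : Hy n N k l m C δ)
include H

theorem zm_c3 : UM rr Cf.z Cf.B (l + 2) 3
    (fun (c : Cf n N k δ l) => c3 c.s₁ c.τ c.β c.k2) := by
  intro a b
  have h1 : UO rr Cf.z 1 (l + 2) 2 (fun (c : Cf n N k δ l) => Qf (fun i j x => (c.τ x i j : ℂ))) :=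
    uo_Qf hrr (T := fun c i j x => (c.τ x i j : ℂ)) fun i j => yo H le_rfl (g_t H i j)
  have h2 : UO rr Cf.z Cf.B (l + 2) 1
      (fun (c : Cf n N k δ l) => Ef (fun i x => lb c.s₁ c.β c.k2 i x a b)) :=
    uo_Ef hrr (u := fun c i x => lb c.s₁ c.β c.k2 i x a b) fun i => km_lb H i a b
  exact (uo_c (h1.cmul h2) _).of_eq fun c z => (c3_eq _ _ _ _ z a b).symm

theorem zm_Fx : UM rr Cf.z Cf.B l 2 (fun (c : Cf n N k δ l) => Fx c.s₁ c.τ c.β c.k2) := by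
  have hm := H.lm
  have hkz : ∀ i j, UM rr Cf.z Cf.B l 0 (fun (c : Cf n N k δ l) z => c.k2 i j z.2) := fun i j =>
    um_snd ((km_k2 i j).mono (by omega) le_rfl)
  have hsd : ∀ i j, UO rr Cf.z 1 l 1
      (fun (c : Cf n N k δ l) z => ((c.s₁ z.1 i j - c.s₁ z.2 i j : ℝ) : ℂ)) := by
    intro i j
    have h : UG univ (l + 1) (fun (c : Cf n N k δ l) x => (c.s₁ x i j : ℂ)) := by
      obtain ⟨A, hA, h⟩ := g_s1 H i j
      exact ⟨A, hA, fun c => (h c).le le_rfl (by omega) Subset.rfl⟩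
    refine (uo_df hrr h).of_eq fun c z => ?_
    push_cast
    rfl
  have h1 : ∀ i j, UM rr Cf.z Cf.B l 2 (fun (c : Cf n N k δ l) z =>
      ((c.s₁ z.1 i j - c.s₁ z.2 i j -
        ∑ b, (z.1 b - z.2 b) * pd b (fun y => c.s₁ y i j) z.2 : ℝ) : ℂ) • c.k2 i j z.2) := by
    intro i j
    have h : UG univ (l + 2) (fun (c : Cf n N k δ l) x => (c.s₁ x i j : ℂ)) := by
      obtain ⟨A, hA, h⟩ := g_s1 H i j
      exact ⟨A, hA, fun c => (h c).le le_rfl hm Subset.rfl⟩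
    have h2 : UO rr Cf.z 1 l 2 (fun (c : Cf n N k δ l) z => ((c.s₁ z.1 i j - c.s₁ z.2 i j -
        ∑ b, (z.1 b - z.2 b) * pd b (fun y => c.s₁ y i j) z.2 : ℝ) : ℂ)) := by
      refine (uo_tr hrr h).of_eq fun c z => ?_
      unfold Tr q
      push_cast
      congr 1
      refine Finset.sum_congr rfl fun b _ => ?_
      rw [pd_re (c.rl.d₁.ss i j)]
    exact UM.csmul h2 (hkz i j)
  have h2 : ∀ j b, UM rr Cf.z Cf.B l 2 (fun (c : Cf n N k δ l) z => ((z.1 b - z.2 b : ℝ) : ℂ) •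
      ((c.β j z.1 - c.β j z.2) * c.k2 j b z.2)) := by
    intro j b
    have h3 : UM rr Cf.z 1 l 1 (fun (c : Cf n N k δ l) z =>
        c.β j z.1 - c.β j z.2) := by
      intro e f
      have h : UG univ (l + 1) (fun (c : Cf n N k δ l) x => c.β j x e f) := by
        obtain ⟨A, hA, h⟩ := g_bL H j e f
        exact ⟨A, hA, fun c => (h c).le le_rfl (by omega) Subset.rfl⟩
      exact uo_df hrr h
    exact UM.csmul (uo_q hrr b) (UM.cmul h3 (hkz j b))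
  have hd1 : ∀ j, UM rr Cf.z Cf.B (l + 1) 2 (fun (c : Cf n N k δ l) =>
      dxk j (c3 c.s₁ c.τ c.β c.k2)) := fun j => um_dxk (zm_c3 H) j
  have hd2 : ∀ i j, UM rr Cf.z Cf.B l 1 (fun (c : Cf n N k δ l) =>
      dxk i (dxk j (c3 c.s₁ c.τ c.β c.k2))) := fun i j => um_dxk (hd1 j) i
  have h3 : ∀ i j, UM rr Cf.z Cf.B l 2 (fun (c : Cf n N k δ l) z =>
      ((c.s₁ z.1 i j - c.s₁ z.2 i j : ℝ) : ℂ) • dxk i (dxk j (c3 c.s₁ c.τ c.β c.k2)) z) :=
    fun i j => UM.csmul (hsd i j) (hd2 i j)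
  have h4 : ∀ j, UM rr Cf.z Cf.B l 2 (fun (c : Cf n N k δ l) z =>
      c.β j z.1 * dxk j (c3 c.s₁ c.τ c.β c.k2) z) := by
    intro j
    have h5 : UM rr Cf.z 1 l 0 (fun (c : Cf n N k δ l) z => c.β j z.1) :=
      fun e f => (uo_fst (g_bL H j e f)).mono (by omega) le_rfl
    exact (UM.cmul h5 ((hd1 j).mono (Nat.le_succ l) le_rfl)).mono le_rfl (by norm_num)
  exact (((UM.sum Finset.univ fun i _ => UM.sum Finset.univ fun j _ => h1 i j).add
    (UM.sum Finset.univ fun j _ => UM.sum Finset.univ fun b _ => h2 j b)).add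
    (UM.sum Finset.univ fun i _ => UM.sum Finset.univ fun j _ => h3 i j)).add
    (UM.sum Finset.univ fun j _ => h4 j)

end Z

end Vale.Agent.P088.S4.H871
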