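import Vale.Agent.P088.R2.H871.Xkc

/-!
# P088, stage 4, row X-KB
-/

open MeasureTheory Set
open scoped ContDiff Matrix NNReal

noncomputable section

namespace Vale.Agent.P088.S4

open Vale.Agent.P088.LR Vale.Agent.P088.LR.U Vale.Agent.P088.LR.H158
open Vale.Agent.P088.HY (VV)
open Vale.Agent.P088.PJ
open Vale.Agent.P088.S4.H871

namespace H871

variable {n N k l m : ℕ} {δ C : ℝ}

theorem key (H : Hy n N k l m C δ) : ∃ A : ℝ, 0 ≤ A ∧ ∀ (c : Cf n N k δ l) a b,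
    ContDiff ℝ ∞ (fun z => Fx c.s₁ c.τ c.β c.k2 z a b) ∧
    ContDiff ℝ ∞ (fun z => Fy c.s₁ c.s₂ c.τ c.P₂ c.G₂ c.β c.Y c.Γ c.k2 z a b) ∧
    ‖iteratedFDeriv ℝ l (fun z => Fx c.s₁ c.τ c.β c.k2 z a b) c.z‖ ≤
      A * ‖c.z.1 - c.z.2‖ ^ (2 - l) * c.B ∧
    ‖iteratedFDeriv ℝ l (fun z => Fy c.s₁ c.s₂ c.τ c.P₂ c.G₂ c.β c.Y c.Γ c.k2 z a b) c.z‖ ≤
      A * ‖c.z.1 - c.z.2‖ ^ (2 - l) * c.B := by
  have h1 := zm_Fx H
  have h2 := zm_Fy H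
  unfold UM UO at h1 h2
  choose A hA0 hA using h1
  choose B hB0 hB using h2
  refine ⟨∑ a, ∑ b, (A a b + B a b), Finset.sum_nonneg fun a _ => Finset.sum_nonneg fun b _ =>
    add_nonneg (hA0 a b) (hB0 a b), fun c a b => ⟨(hA a b c).1, (hB a b c).1, ?_, ?_⟩⟩
  all_goals
    have h3 : A a b + B a b ≤ ∑ a, ∑ b, (A a b + B a b) :=
      (Finset.single_le_sum (f := fun b => A a b + B a b)
        (fun b _ => add_nonneg (hA0 a b) (hB0 a b)) (Finset.mem_univ b)).trans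
      (Finset.single_le_sum (f := fun a => ∑ b, (A a b + B a b))
        (fun a _ => Finset.sum_nonneg fun b _ => add_nonneg (hA0 a b) (hB0 a b))
        (Finset.mem_univ a))
    have hp : (0 : ℝ) ≤ ‖c.z.1 - c.z.2‖ ^ (2 - l) * c.B := by positivity
  · refine ((hA a b c).2 l le_rfl).trans ?_
    rw [rr_eq]
    calc A a b * c.B * ‖c.z.1 - c.z.2‖ ^ (2 - l) = A a b * (‖c.z.1 - c.z.2‖ ^ (2 - l) * c.B) := by
          ring
      _ ≤ (∑ a, ∑ b, (A a b + B a b)) * (‖c.z.1 - c.z.2‖ ^ (2 - l) * c.B) :=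
          mul_le_mul_of_nonneg_right (by linarith [hB0 a b]) hp
      _ = _ := by ring
  · refine ((hB a b c).2 l le_rfl).trans ?_
    rw [rr_eq]
    calc B a b * c.B * ‖c.z.1 - c.z.2‖ ^ (2 - l) = B a b * (‖c.z.1 - c.z.2‖ ^ (2 - l) * c.B) := by
          ring
      _ ≤ (∑ a, ∑ b, (A a b + B a b)) * (‖c.z.1 - c.z.2‖ ^ (2 - l) * c.B) :=
          mul_le_mul_of_nonneg_right (by linarith [hA0 a b]) hp
      _ = _ := by ring

end H871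

theorem rowXKB : RowXKB := by
  intro n N L
  obtain ⟨C, δ₁, hC1, hδ₁, hδ₁', hco⟩ := coef n N (L + 2)
  obtain ⟨Ct, δ₂, hCt, hδ₂, hδ₂', htau⟩ := tau_bd n (L + 2)
  set δ : ℝ := min δ₁ δ₂ with hδ
  have hδ0 : 0 < δ := lt_min hδ₁ hδ₂
  have hH : ∀ l, l ≤ L → Hy n N (L + 3) l (L + 2) C δ := by
    intro l hl
    refine ⟨fun c => ?_, fun c => ?_, fun c => ?_, fun c => ?_, fun i j => ⟨Ct, hCt, fun c => ?_⟩,
      by linarith, hδ0.le, (min_le_left _ _).trans hδ₁', by omega, le_rfl⟩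
    · exact (hco δ hδ0.le (min_le_left _ _) (L + 3) le_rfl (c.O ∩ c.Kc) c.s₁ c.P₁ c.G₁ c.rl.d₁).1
    · exact (hco δ hδ0.le (min_le_left _ _) (L + 3) le_rfl (c.O ∩ c.Kc) c.s₂ c.P₂ c.G₂ c.rl.d₂).1
    · exact (hco δ hδ0.le (min_le_left _ _) (L + 3) le_rfl (c.O ∩ c.Kc) c.s₂ c.P₂ c.G₂ c.rl.d₂).2.1
    · exact (hco δ hδ0.le (min_le_left _ _) (L + 3) le_rfl (c.O ∩ c.Kc) c.s₂ c.P₂ c.G₂ c.rl.d₂).2.2
    · exact htau δ hδ0.le (min_le_right _ _) c.s₁ c.τ c.rl.d₁.ss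
        (fun i j l hl x => c.rl.d₁.cs i j l (by omega) x) c.te i j
  choose! A hA0 hA using fun l hl => key (hH l hl)
  refine ⟨L + 3, 1 + ∑ l ∈ Finset.range (L + 1), A l, δ, ?_, hδ0, ?_⟩
  · have : 0 ≤ ∑ l ∈ Finset.range (L + 1), A l := Finset.sum_nonneg fun l hl =>
      hA0 l (by rw [Finset.mem_range] at hl; omega)
    linarith
  intro O Kc j₀ s₁ s₂ P₁ P₂ G₁ G₂ β Y D rl Γ ig τ st te k2 tk
  refine ⟨?_, ?_, fun z hz B hB l hl hb a b => ?_⟩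
  · obtain ⟨B, hB⟩ := Finite.exists_le (fun p : Fin n × Fin n × Fin N × Fin N × Fin 3 =>
      ‖iteratedFDeriv ℝ p.2.2.2.2 (fun x => k2 p.1 p.2.1 x p.2.2.1 p.2.2.2.1) (0 : V n)‖)
    intro a b
    refine ((hA 0 (Nat.zero_le _) ⟨O, Kc, j₀, s₁, s₂, P₁, P₂, G₁, G₂, β, Y, D, rl, Γ, ig, τ, st, te, k2,
      tk, (0, 0), by simp, B.toNNReal, ?_⟩ a b).1).contDiffOn
    intro i j a b m hm
    exact (hB (i, j, a, b, ⟨m, by omega⟩)).trans (Real.le_coe_toNNReal B)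
  · obtain ⟨B, hB⟩ := Finite.exists_le (fun p : Fin n × Fin n × Fin N × Fin N × Fin 3 =>
      ‖iteratedFDeriv ℝ p.2.2.2.2 (fun x => k2 p.1 p.2.1 x p.2.2.1 p.2.2.2.1) (0 : V n)‖)
    intro a b
    refine ((hA 0 (Nat.zero_le _) ⟨O, Kc, j₀, s₁, s₂, P₁, P₂, G₁, G₂, β, Y, D, rl, Γ, ig, τ, st, te, k2,
      tk, (0, 0), by simp, B.toNNReal, ?_⟩ a b).2.1).contDiffOn
    intro i j a b m hm
    exact (hB (i, j, a, b, ⟨m, by omega⟩)).trans (Real.le_coe_toNNReal B)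
  · have h1 := hA l hl ⟨O, Kc, j₀, s₁, s₂, P₁, P₂, G₁, G₂, β, Y, D, rl, Γ, ig, τ, st, te, k2,
      tk, z, hz, ⟨B, hB⟩, hb⟩ a b
    obtain ⟨-, -, h2, h3⟩ := h1
    have h4 : A l ≤ 1 + ∑ l ∈ Finset.range (L + 1), A l := by
      have := Finset.single_le_sum (f := fun l => A l) (s := Finset.range (L + 1))
        (fun l hl => hA0 l (by rw [Finset.mem_range] at hl; omega))
        (Finset.mem_range.mpr (by omega : l < L + 1))
      linarith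
    have h5 : A l * ‖z.1 - z.2‖ ^ (2 - l) * B ≤
        (1 + ∑ l ∈ Finset.range (L + 1), A l) * ‖z.1 - z.2‖ ^ (2 - l) * B :=
      mul_le_mul_of_nonneg_right (mul_le_mul_of_nonneg_right h4 (by positivity)) hB
    exact ⟨h2.trans h5, h3.trans h5⟩

end Vale.Agent.P088.S4
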