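import Vale.Agent.P088.R2.H696.V.Klb
import Vale.Agent.P088.R2.H349.S4.SpecA

/-!
# P088, stage 4, row X-KB: a calculus of orders of vanishing, uniform in a family

`UO r z W K j f` : the functions `f i` are smooth and their derivatives of order `l ≤ K` at `z i`
are bounded by `C * W i * r i ^ (j - l)`, with `C` independent of `i`.
-/

open MeasureTheory Set
open scoped ContDiff Matrix NNReal

noncomputable section

namespace Vale.Agent.P088.S4.H871

open Vale.Agent.P088.LR Vale.Agent.P088.LR.U Vale.Agent.P088.LR.H158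
open Vale.Agent.P088.HY (VV)
open Vale.Agent.P088.PJ
open Vale.Agent.P088.PJ.H696 (Bd BM)

section General

variable {ι E E' F : Type*} [NormedAddCommGroup E] [NormedSpace ℝ E] [NormedAddCommGroup E']
  [NormedSpace ℝ E'] [NormedAddCommGroup F] [NormedSpace ℝ F] {N : ℕ}
  {r : ι → Set.Icc (0 : ℝ) 1} {z : ι → E} {W W' : ι → ℝ≥0} {K j : ℕ}

/-- Smooth, the derivatives of order `l ≤ K` at `z i` are `O(W i * r i ^ (j - l))`. -/
def UO (r : ι → Set.Icc (0 : ℝ) 1) (z : ι → E) (W : ι → ℝ≥0) (K j : ℕ) (f : ι → E → F) : Prop :=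
  ∃ C : ℝ, 0 ≤ C ∧ ∀ i, ContDiff ℝ ∞ (f i) ∧ ∀ l ≤ K,
    ‖iteratedFDeriv ℝ l (f i) (z i)‖ ≤ C * W i * (r i : ℝ) ^ (j - l)

/-- All entries. -/
def UM (r : ι → Set.Icc (0 : ℝ) 1) (z : ι → E) (W : ι → ℝ≥0) (K j : ℕ)
    (f : ι → E → Matrix (Fin N) (Fin N) ℂ) : Prop :=
  ∀ a b, UO r z W K j fun i z => f i z a b

theorem r0 (r : ι → Set.Icc (0 : ℝ) 1) (i : ι) : (0 : ℝ) ≤ r i := (r i).2.1

theorem r1 (r : ι → Set.Icc (0 : ℝ) 1) (i : ι) : (r i : ℝ) ≤ 1 := (r i).2.2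

theorem UO.sm {f : ι → E → F} (h : UO r z W K j f) (i : ι) : ContDiff ℝ ∞ (f i) := by
  obtain ⟨C, -, h⟩ := h
  exact (h i).1

theorem UO.of_eq {f g : ι → E → F} (h : UO r z W K j f) (e : ∀ i x, f i x = g i x) :
    UO r z W K j g := by
  have : f = g := funext fun i => funext fun x => e i x
  rwa [this] at h

theorem UO.mono {f : ι → E → F} {K' j' : ℕ} (h : UO r z W K j f) (hK : K' ≤ K) (hj : j' ≤ j) :
    UO r z W K' j' f := by
  obtain ⟨C, hC, h⟩ := h
  refine ⟨C, hC, fun i => ⟨(h i).1, fun l hl => ((h i).2 l (hl.trans hK)).trans ?_⟩⟩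
  exact mul_le_mul_of_nonneg_left (pow_le_pow_of_le_one (r0 r i) (r1 r i) (by omega))
    (mul_nonneg hC (W i).2)

theorem UO.monoW {f : ι → E → F} (h : UO r z W K j f) (hW : ∀ i, W i ≤ W' i) :
    UO r z W' K j f := by
  obtain ⟨C, hC, h⟩ := h
  refine ⟨C, hC, fun i => ⟨(h i).1, fun l hl => ((h i).2 l hl).trans ?_⟩⟩
  exact mul_le_mul_of_nonneg_right (mul_le_mul_of_nonneg_left (by exact_mod_cast hW i) hC)
    (pow_nonneg (r0 r i) _)

theorem UO.add {f g : ι → E → F} (h1 : UO r z W K j f) (h2 : UO r z W K j g) :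
    UO r z W K j (fun i x => f i x + g i x) := by
  obtain ⟨C, hC, h1⟩ := h1
  obtain ⟨D, hD, h2⟩ := h2
  refine ⟨C + D, add_nonneg hC hD, fun i => ⟨(h1 i).1.add (h2 i).1, fun l hl => ?_⟩⟩
  rw [fun_iteratedFDeriv_add_apply ((h1 i).1.of_le (mod_cast le_top)).contDiffAt
    ((h2 i).1.of_le (mod_cast le_top)).contDiffAt]
  refine (norm_add_le _ _).trans ((add_le_add ((h1 i).2 l hl) ((h2 i).2 l hl)).trans ?_)
  exact le_of_eq (by ring)

theorem UO.neg {f : ι → E → F} (h1 : UO r z W K j f) :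
    UO r z W K j (fun i x => -f i x) := by
  obtain ⟨C, hC, h1⟩ := h1
  refine ⟨C, hC, fun i => ⟨(h1 i).1.neg, fun l hl => ?_⟩⟩
  have e : iteratedFDeriv ℝ l (fun x => -f i x) (z i) = -iteratedFDeriv ℝ l (f i) (z i) :=
    iteratedFDeriv_neg_apply
  rw [e, norm_neg]
  exact (h1 i).2 l hl

theorem UO.sub {f g : ι → E → F} (h1 : UO r z W K j f) (h2 : UO r z W K j g) :
    UO r z W K j (fun i x => f i x - g i x) := by
  simp only [sub_eq_add_neg]
  exact h1.add h2.neg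

theorem UO.const (c : F) : UO r z 1 K 0 (fun _ _ => c) := by
  refine ⟨‖c‖, norm_nonneg _, fun i => ⟨contDiff_const, fun l hl => ?_⟩⟩
  have := (Bd.const (E := E) (O := univ) (K := K) c).2 l hl (z i) (mem_univ _)
  simpa using this

theorem UO.zero : UO r z W K j (fun _ _ => (0 : F)) := by
  refine ⟨0, le_rfl, fun i => ⟨contDiff_const, fun l _ => ?_⟩⟩
  have : iteratedFDeriv ℝ l (fun _ : E => (0 : F)) (z i) = 0 := by
    simp
  rw [this]
  simp

theorem UO.sum {κ : Type*} (s : Finset κ) {f : κ → ι → E → F}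
    (h : ∀ c ∈ s, UO r z W K j (f c)) : UO r z W K j (fun i x => ∑ c ∈ s, f c i x) := by
  classical
  induction s using Finset.induction_on with
  | empty => simpa using UO.zero
  | insert c s hc ih =>
    have h1 := (h c (Finset.mem_insert_self _ _)).add
      (ih fun d hd => h d (Finset.mem_insert_of_mem hd))
    refine h1.of_eq fun i x => ?_
    rw [Finset.sum_insert hc]

theorem pow_aux {s : ℝ} (h0 : 0 ≤ s) (h1 : s ≤ 1) {j₁ j₂ i l : ℕ} (hi : i ≤ l) :
    s ^ (j₁ - i) * s ^ (j₂ - (l - i)) ≤ s ^ (j₁ + j₂ - l) := by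
  rw [← pow_add]
  exact pow_le_pow_of_le_one h0 h1 (by omega)

theorem UO.mul {j₁ j₂ : ℕ} {f g : ι → E → ℂ} (h1 : UO r z W K j₁ f) (h2 : UO r z W' K j₂ g) :
    UO r z (fun i => W i * W' i) K (j₁ + j₂) (fun i x => f i x * g i x) := by
  obtain ⟨C, hC, h1⟩ := h1
  obtain ⟨D, hD, h2⟩ := h2
  refine ⟨2 ^ K * (C * D), by positivity, fun i => ⟨(h1 i).1.mul (h2 i).1, fun l hl => ?_⟩⟩
  have hr0 := r0 r i
  have hr1 := r1 r i
  refine (norm_iteratedFDeriv_mul_le (h1 i).1 (h2 i).1 (z i) (n := l) (mod_cast le_top)).trans ?_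
  have h3 : ∀ m ∈ Finset.range (l + 1), (l.choose m : ℝ) * ‖iteratedFDeriv ℝ m (f i) (z i)‖ *
      ‖iteratedFDeriv ℝ (l - m) (g i) (z i)‖ ≤
        (l.choose m : ℝ) * (C * D * (W i * W' i) * (r i : ℝ) ^ (j₁ + j₂ - l)) := by
    intro m hm
    rw [Finset.mem_range] at hm
    rw [mul_assoc]
    refine mul_le_mul_of_nonneg_left ?_ (Nat.cast_nonneg _)
    refine (mul_le_mul ((h1 i).2 m (by omega)) ((h2 i).2 (l - m) (by omega)) (norm_nonneg _)
      (by positivity)).trans ?_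
    calc C * W i * (r i : ℝ) ^ (j₁ - m) * (D * W' i * (r i : ℝ) ^ (j₂ - (l - m)))
        = C * D * (W i * W' i) * ((r i : ℝ) ^ (j₁ - m) * (r i : ℝ) ^ (j₂ - (l - m))) := by ring
      _ ≤ _ := mul_le_mul_of_nonneg_left (pow_aux hr0 hr1 (by omega)) (by positivity)
  refine (Finset.sum_le_sum h3).trans ?_
  rw [← Finset.sum_mul]
  have h4 : ∑ i ∈ Finset.range (l + 1), (l.choose i : ℝ) = 2 ^ l := by
    exact_mod_cast Nat.sum_range_choose l
  rw [h4]
  have h5 : (2 : ℝ) ^ l ≤ 2 ^ K := pow_le_pow_right₀ (by norm_num) hl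
  calc (2 : ℝ) ^ l * (C * D * (W i * W' i) * (r i : ℝ) ^ (j₁ + j₂ - l))
      ≤ 2 ^ K * (C * D * (W i * W' i) * (r i : ℝ) ^ (j₁ + j₂ - l)) :=
        mul_le_mul_of_nonneg_right h5 (by positivity)
    _ = _ := by push_cast; ring

/-- A coefficient times a function of the class. -/
theorem UO.cmul {j₁ j₂ : ℕ} {f g : ι → E → ℂ} (h1 : UO r z 1 K j₁ f) (h2 : UO r z W K j₂ g) :
    UO r z W K (j₁ + j₂) (fun i x => f i x * g i x) := by
  have h := h1.mul h2
  have e : (fun i => (1 : ι → ℝ≥0) i * W i) = W := by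
    funext i
    simp
  rwa [e] at h

theorem UO.mulc {j₁ j₂ : ℕ} {f g : ι → E → ℂ} (h1 : UO r z W K j₁ f) (h2 : UO r z 1 K j₂ g) :
    UO r z W K (j₁ + j₂) (fun i x => f i x * g i x) := by
  have h := h1.mul h2
  have e : (fun i => W i * (1 : ι → ℝ≥0) i) = W := by
    funext i
    simp
  rwa [e] at h

theorem UO.comp {z : ι → E'} (L : E' →L[ℝ] E) (hL : ‖L‖ ≤ 1) {f : ι → E → F}
    (h : UO r (fun i => L (z i)) W K j f) : UO r z W K j (fun i x => f i (L x)) := by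
  obtain ⟨C, hC, h⟩ := h
  refine ⟨C, hC, fun i => ⟨(h i).1.comp L.contDiff, fun l hl => ?_⟩⟩
  have e : iteratedFDeriv ℝ l (fun x => f i (L x)) (z i) =
      (iteratedFDeriv ℝ l (f i) (L (z i))).compContinuousLinearMap fun _ => L :=
    L.iteratedFDeriv_comp_right (h i).1 (z i) (mod_cast le_top)
  rw [e]
  refine (ContinuousMultilinearMap.norm_compContinuousLinearMap_le _ _).trans ?_
  have h5 : ∏ _i : Fin l, ‖L‖ ≤ 1 := Finset.prod_le_one (fun _ _ => norm_nonneg _) fun _ _ => hL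
  calc _ ≤ ‖iteratedFDeriv ℝ l (f i) (L (z i))‖ * 1 := mul_le_mul_of_nonneg_left h5 (norm_nonneg _)
    _ ≤ _ := by rw [mul_one]; exact (h i).2 l hl

theorem UO.fd {f : ι → E → F} (h : UO r z W (K + 1) j f) (v : E) :
    UO r z W K (j - 1) (fun i x => fderiv ℝ (f i) x v) := by
  obtain ⟨C, hC, h⟩ := h
  refine ⟨‖v‖ * C, by positivity, fun i => ?_⟩
  have h1 : ContDiff ℝ ∞ (fderiv ℝ (f i)) := (h i).1.fderiv_right (m := ∞) (mod_cast le_top)
  refine ⟨h1.clm_apply contDiff_const, fun l hl => ?_⟩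
  have e : iteratedFDeriv ℝ l (fun x => fderiv ℝ (f i) x v) (z i) =
      (ContinuousLinearMap.apply ℝ F v).compContinuousMultilinearMap
        (iteratedFDeriv ℝ l (fderiv ℝ (f i)) (z i)) :=
    (ContinuousLinearMap.apply ℝ F v).iteratedFDeriv_comp_left h1.contDiffAt (mod_cast le_top)
  rw [e]
  refine (ContinuousLinearMap.norm_compContinuousMultilinearMap_le _ _).trans ?_
  rw [norm_iteratedFDeriv_fderiv]
  have h6 : ‖(ContinuousLinearMap.apply ℝ F v : (E →L[ℝ] F) →L[ℝ] F)‖ ≤ ‖v‖ := by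
    refine ContinuousLinearMap.opNorm_le_bound _ (norm_nonneg _) fun T => ?_
    rw [ContinuousLinearMap.apply_apply, mul_comm]
    exact T.le_opNorm v
  have h7 : j - 1 - l = j - (l + 1) := by omega
  rw [h7]
  calc _ ≤ ‖v‖ * ‖iteratedFDeriv ℝ (l + 1) (f i) (z i)‖ :=
        mul_le_mul_of_nonneg_right h6 (norm_nonneg _)
    _ ≤ ‖v‖ * (C * W i * (r i : ℝ) ^ (j - (l + 1))) :=
        mul_le_mul_of_nonneg_left ((h i).2 (l + 1) (by omega)) (norm_nonneg _)
    _ = _ := by ring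

/-- Global bounds, uniform in the family. -/
def UG (O : Set E) (K : ℕ) (f : ι → E → F) : Prop := ∃ C : ℝ, 0 ≤ C ∧ ∀ i, Bd O K C (f i)

theorem UG.uo {f : ι → E → F} (h : UG univ K f) : UO r z 1 K 0 f := by
  obtain ⟨C, hC, h⟩ := h
  refine ⟨C, hC, fun i => ⟨(h i).1, fun l hl => ?_⟩⟩
  have := (h i).2 l hl (z i) (mem_univ _)
  simpa using this

/-! ## Matrices -/

theorem UM.of_eq {f g : ι → E → Matrix (Fin N) (Fin N) ℂ} (h : UM r z W K j f)
    (e : ∀ i x, f i x = g i x) : UM r z W K j g :=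
  fun a b => (h a b).of_eq fun i x => by rw [e]

theorem UM.mono {f : ι → E → Matrix (Fin N) (Fin N) ℂ} {K' j' : ℕ} (h : UM r z W K j f)
    (hK : K' ≤ K) (hj : j' ≤ j) : UM r z W K' j' f := fun a b => (h a b).mono hK hj

theorem UM.add {f g : ι → E → Matrix (Fin N) (Fin N) ℂ} (h1 : UM r z W K j f)
    (h2 : UM r z W K j g) : UM r z W K j (fun i x => f i x + g i x) :=
  fun a b => (h1 a b).add (h2 a b)

theorem UM.sub {f g : ι → E → Matrix (Fin N) (Fin N) ℂ} (h1 : UM r z W K j f)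
    (h2 : UM r z W K j g) : UM r z W K j (fun i x => f i x - g i x) :=
  fun a b => (h1 a b).sub (h2 a b)

theorem UM.sum {κ : Type*} (s : Finset κ) {f : κ → ι → E → Matrix (Fin N) (Fin N) ℂ}
    (h : ∀ c ∈ s, UM r z W K j (f c)) : UM r z W K j (fun i x => ∑ c ∈ s, f c i x) := by
  intro a b
  refine (UO.sum s (f := fun c i x => f c i x a b) fun c hc => h c hc a b).of_eq fun i x => ?_
  exact (Matrix.sum_apply a b s _).symm

theorem UM.cmul {j₁ j₂ : ℕ} {f g : ι → E → Matrix (Fin N) (Fin N) ℂ} (h1 : UM r z 1 K j₁ f)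
    (h2 : UM r z W K j₂ g) : UM r z W K (j₁ + j₂) (fun i x => f i x * g i x) := by
  intro a b
  refine (UO.sum (Finset.univ : Finset (Fin N)) (f := fun c i x => f i x a c * g i x c b)
    fun c _ => (h1 a c).cmul (h2 c b)).of_eq fun i x => ?_
  exact (Matrix.mul_apply).symm

theorem UM.mulc {j₁ j₂ : ℕ} {f g : ι → E → Matrix (Fin N) (Fin N) ℂ} (h1 : UM r z W K j₁ f)
    (h2 : UM r z 1 K j₂ g) : UM r z W K (j₁ + j₂) (fun i x => f i x * g i x) := by
  intro a b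
  refine (UO.sum (Finset.univ : Finset (Fin N)) (f := fun c i x => f i x a c * g i x c b)
    fun c _ => (h1 a c).mulc (h2 c b)).of_eq fun i x => ?_
  exact (Matrix.mul_apply).symm

theorem UM.csmul {j₁ j₂ : ℕ} {f : ι → E → ℂ} {g : ι → E → Matrix (Fin N) (Fin N) ℂ}
    (h1 : UO r z 1 K j₁ f) (h2 : UM r z W K j₂ g) :
    UM r z W K (j₁ + j₂) (fun i x => f i x • g i x) := by
  intro a b
  refine (h1.cmul (h2 a b)).of_eq fun i x => ?_
  rfl

theorem UM.comp {z : ι → E'} (L : E' →L[ℝ] E) (hL : ‖L‖ ≤ 1)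
    {f : ι → E → Matrix (Fin N) (Fin N) ℂ}
    (h : UM r (fun i => L (z i)) W K j f) : UM r z W K j (fun i x => f i (L x)) :=
  fun a b => UO.comp L hL (h a b)

theorem UM.zero : UM r z W K j (fun _ _ => (0 : Matrix (Fin N) (Fin N) ℂ)) :=
  fun _ _ => UO.zero

end General

end Vale.Agent.P088.S4.H871
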