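import Vale.Agent.P088.R2.H871.Xkb

/-!
# P088, stage 4, row X-KB: the second residual
-/

open MeasureTheory Set
open scoped ContDiff Matrix NNReal

noncomputable section

namespace Vale.Agent.P088.S4.H871

open Vale.Agent.P088.LR Vale.Agent.P088.LR.U Vale.Agent.P088.LR.H158
open Vale.Agent.P088.HY (VV)
open Vale.Agent.P088.PJ
open Vale.Agent.P088.PJ.H696 (Bd BM CB bd_re bm_cl bd_cl bm_sm bm_pdm pdm_subc)

variable {n N k l m : ℕ} {δ C : ℝ}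

/-! ## The Taylor remainder of `Y` -/

/-- the coordinate `x_a` -/
def xL (a : Fin n) : V n →L[ℝ] ℂ :=
  Complex.ofRealCLM.comp (ContinuousLinearMap.proj a : V n →L[ℝ] ℝ)

theorem Tr_sub {f g : V n → ℂ} (hf : ContDiff ℝ ∞ f) (hg : ContDiff ℝ ∞ g) (z : VV n) :
    Tr (fun x => f x - g x) z = Tr f z - Tr g z := by
  unfold Tr
  have h : ∀ b, pd b (fun x => f x - g x) z.2 = pd b f z.2 - pd b g z.2 := fun b => by
    unfold pd
    have h1 : fderiv ℝ (fun x => f x - g x) z.2 = _ :=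
      fderiv_sub (hf.differentiable (by decide)).differentiableAt
        (hg.differentiable (by decide)).differentiableAt
    rw [h1]
    rfl
  simp only [h, mul_sub, Finset.sum_sub_distrib]
  ring

theorem Tr_lin (a : Fin n) (c : ℂ) (z : VV n) : Tr (fun x => ((x a : ℝ) : ℂ) * c) z = 0 := by
  have h : ∀ b, pd b (fun x : V n => ((x a : ℝ) : ℂ) * c) z.2 = if b = a then c else 0 := by
    intro b
    have h1 : HasFDerivAt (fun x : V n => ((x a : ℝ) : ℂ) * c)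
        (c • (xL a : V n →L[ℝ] ℂ)) z.2 := (xL a).hasFDerivAt.mul_const c
    unfold pd
    rw [h1.fderiv, _root_.smul_apply]
    have h2 : xL a (Pi.single b 1 : V n) = (((Pi.single b 1 : V n) a : ℝ) : ℂ) := rfl
    rw [h2, smul_eq_mul]
    rcases eq_or_ne b a with hb | hb
    · subst hb
      simp
    · simp [hb, hb.symm]
  unfold Tr
  simp only [h]
  have h3 : ∀ b, q b z * (if b = a then c else 0) = if b = a then q b z * c else 0 := fun b => by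
    split_ifs <;> simp
  simp only [h3]
  rw [Finset.sum_ite_eq' Finset.univ a fun b => q b z * c]
  simp only [Finset.mem_univ, if_true]
  unfold q
  push_cast
  ring

section Z

variable (H : Hy n N k l m C δ)
include H

theorem zo_Y (a : Fin n) (e f : Fin N) :
    UO rr Cf.z 1 l 2 (fun (c : Cf n N k δ l) => Tr (fun x => c.Y a x e f)) := by
  have hm := H.lm
  have hk := H.km
  have h : UG univ (l + 2) (fun (c : Cf n N k δ l) x =>
      c.Y a x e f - ((x a : ℝ) : ℂ) * (1 : Matrix (Fin N) (Fin N) ℂ) e f) := by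
    refine ⟨δ, H.d0, fun c => ⟨(c.rl.sY a e f).sub ((xL a).contDiff.mul contDiff_const), ?_⟩⟩
    intro i hi x _
    exact c.rl.cY a e f i (by omega) x
  refine (uo_tr hrr h).of_eq fun c z => ?_
  have hg : ContDiff ℝ ∞ (fun x : V n => ((x a : ℝ) : ℂ) * (1 : Matrix (Fin N) (Fin N) ℂ) e f) :=
    (xL a).contDiff.mul contDiff_const
  exact (Tr_sub (c.rl.sY a e f) hg z).trans (by rw [Tr_lin, sub_zero])

theorem zm_Y (a : Fin n) : UM rr Cf.z 1 l 2 (fun (c : Cf n N k δ l) z =>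
    c.Y a z.1 - c.Y a z.2 - ∑ i, ((z.1 i - z.2 i : ℝ) : ℂ) • pdm i (c.Y a) z.2) := by
  intro e f
  refine (zo_Y H a e f).of_eq fun c z => ?_
  show Tr (fun x => c.Y a x e f) z =
    (c.Y a z.1 - c.Y a z.2 - ∑ i, ((z.1 i - z.2 i : ℝ) : ℂ) • pdm i (c.Y a) z.2) e f
  rw [Matrix.sub_apply, Matrix.sub_apply, Matrix.sum_apply]
  rfl

/-! ## The cubic term -/

theorem can_eq (c : Cf n N k δ l) (z : VV n) (a b : Fin N) :
    (Rk c.s₂ (bR c.s₂ c.P₂ c.G₂) (c3 c.s₁ c.τ c.β c.k2) z +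
      (∑ i, ((z.1 i - z.2 i : ℝ) : ℂ) • ta c.s₁ c.s₂ c.τ c.P₂ c.β c.k2 i z.2) *
        (c.P₂ z.2)⁻¹) a b =
    ∑ i, ∑ j, (c.s₂ z.2 i j : ℂ) * (-(1 / (2 * ((n : ℂ) + 2))) *
      Sr (fun i j x => (c.τ x i j : ℂ)) (fun i x => lb c.s₁ c.β c.k2 i x a b) i j z) +
    (∑ i, dyk i (c3 c.s₁ c.τ c.β c.k2) z * bR c.s₂ c.P₂ c.G₂ i z.2) a b := by
  set T : Fin n → Fin n → V n → ℂ := fun i j x => (c.τ x i j : ℂ) with hT
  set u : Fin n → V n → ℂ := fun i x => lb c.s₁ c.β c.k2 i x a b with hu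
  set κ : ℂ := -(1 / (2 * ((n : ℂ) + 2))) with hκ
  have hTs : ∀ i j, ContDiff ℝ ∞ (T i j) := fun i j => Complex.ofRealCLM.contDiff.comp (c.st i j)
  have hTy : ∀ i j x, T i j x = T j i x := fun i j x => by
    simp only [hT]
    rw [tau_sy (c.rl.d₁.sy x) (c.te x) i j]
  have hus : ∀ i, ContDiff ℝ ∞ (u i) := fun i => (km_lb H i a b).sm c
  have hQE : ContDiff ℝ ∞ (fun z => Qf T z * Ef u z) := (Qf_sm hTs).mul (Ef_sm hus)
  have h1 : ∀ i j, dyk i (dyk j (c3 c.s₁ c.τ c.β c.k2)) z a b = κ * (Sr T u i j z +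
      (2 * T j i z.2 * Ef u z + 2 * Ef (T j) z * u i z.2 + 2 * Ef (T i) z * u j z.2)) := by
    intro i j
    have e1 : dyk i (dyk j (c3 c.s₁ c.τ c.β c.k2)) z a b =
        dy i (dy j (fun z => c3 c.s₁ c.τ c.β c.k2 z a b)) z := rfl
    have e2 : (fun z => c3 c.s₁ c.τ c.β c.k2 z a b) = fun z => κ * (Qf T z * Ef u z) :=
      funext fun z => c3_eq _ _ _ _ z a b
    rw [e1, e2, dy_fun (fun z => dy_cm hQE κ j z) i z, dy_cm (dy_sm hQE j),
      dyy_QE hTs (fun i j => funext (hTy i j)) hus]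
  have h2 : (∑ i, ((z.1 i - z.2 i : ℝ) : ℂ) • ta c.s₁ c.s₂ c.τ c.P₂ c.β c.k2 i z.2) *
      (c.P₂ z.2)⁻¹ = ∑ i, ((z.1 i - z.2 i : ℝ) : ℂ) • ∑ e, (mbl c.s₂ c.τ i e z.2 : ℂ) •
        lb c.s₁ c.β c.k2 e z.2 := by
    rw [Finset.sum_mul]
    refine Finset.sum_congr rfl fun i _ => ?_
    rw [Matrix.smul_mul]
    congr 1
    unfold ta
    exact Matrix.mul_nonsing_inv_cancel_right _ _ (H.u2 c z.2)
  have h3 : (∑ i, ((z.1 i - z.2 i : ℝ) : ℂ) • ∑ e, (mbl c.s₂ c.τ i e z.2 : ℂ) •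
        lb c.s₁ c.β c.k2 e z.2) a b =
      ∑ i, q i z * ∑ e, ((∑ i, ∑ j, (c.s₂ z.2 i j : ℂ) * T i j z.2) * (if i = e then 1 else 0) +
        2 * ∑ j, (c.s₂ z.2 e j : ℂ) * T j i z.2) / ((n : ℂ) + 2) * u e z.2 := by
    rw [Matrix.sum_apply]
    refine Finset.sum_congr rfl fun i _ => ?_
    rw [Matrix.smul_apply, Matrix.sum_apply, smul_eq_mul]
    unfold q
    congr 1
    refine Finset.sum_congr rfl fun e _ => ?_
    rw [Matrix.smul_apply, smul_eq_mul]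
    congr 1
    unfold mbl
    split_ifs <;> push_cast <;> rfl
  have hc : (n : ℂ) + 2 ≠ 0 := by
    have : ((n : ℂ) + 2) = ((n + 2 : ℕ) : ℂ) := by push_cast; ring
    rw [this]
    exact Nat.cast_ne_zero.mpr (by omega)
  have h4 := alg (fun i j => (c.s₂ z.2 i j : ℂ)) (fun i j => T i j z.2) (fun b => q b z)
    (fun i => u i z.2) (fun i j => by
      have := (c.rl.d₂.sy z.2).apply i j
      rw [this]) (fun i j => hTy i j z.2) hc
  have h5 : (Rk c.s₂ (bR c.s₂ c.P₂ c.G₂) (c3 c.s₁ c.τ c.β c.k2) z) a b =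
      ∑ i, ∑ j, (c.s₂ z.2 i j : ℂ) * (κ * (Sr T u i j z +
      (2 * T j i z.2 * Ef u z + 2 * Ef (T j) z * u i z.2 + 2 * Ef (T i) z * u j z.2))) +
      (∑ i, dyk i (c3 c.s₁ c.τ c.β c.k2) z * bR c.s₂ c.P₂ c.G₂ i z.2) a b := by
    unfold Rk
    rw [Matrix.add_apply]
    congr 1
    rw [Matrix.sum_apply]
    refine Finset.sum_congr rfl fun i _ => ?_
    rw [Matrix.sum_apply]
    refine Finset.sum_congr rfl fun j _ => ?_
    rw [Matrix.smul_apply, smul_eq_mul, h1 i j]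
  rw [Matrix.add_apply, h2, h3, h5]
  have h6 : ∑ i, ∑ j, (c.s₂ z.2 i j : ℂ) * (κ * (Sr T u i j z +
      (2 * T j i z.2 * Ef u z + 2 * Ef (T j) z * u i z.2 + 2 * Ef (T i) z * u j z.2))) =
      ∑ i, ∑ j, (c.s₂ z.2 i j : ℂ) * (κ * Sr T u i j z) +
      ∑ i, ∑ j, (c.s₂ z.2 i j : ℂ) * (κ *
      (2 * T j i z.2 * Ef u z + 2 * Ef (T j) z * u i z.2 + 2 * Ef (T i) z * u j z.2)) := by
    rw [← Finset.sum_add_distrib]
    refine Finset.sum_congr rfl fun i _ => ?_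
    rw [← Finset.sum_add_distrib]
    exact Finset.sum_congr rfl fun j _ => by ring
  rw [h6]
  have h7 : ∑ i, ∑ j, (c.s₂ z.2 i j : ℂ) * (κ *
      (2 * T j i z.2 * Ef u z + 2 * Ef (T j) z * u i z.2 + 2 * Ef (T i) z * u j z.2)) +
      ∑ i, q i z * ∑ e, ((∑ i, ∑ j, (c.s₂ z.2 i j : ℂ) * T i j z.2) * (if i = e then 1 else 0) +
        2 * ∑ j, (c.s₂ z.2 e j : ℂ) * T j i z.2) / ((n : ℂ) + 2) * u e z.2 = 0 := h4
  linear_combination h7

theorem zm_can : UM rr Cf.z Cf.B l 2 (fun (c : Cf n N k δ l) z =>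
    Rk c.s₂ (bR c.s₂ c.P₂ c.G₂) (c3 c.s₁ c.τ c.β c.k2) z +
      (∑ i, ((z.1 i - z.2 i : ℝ) : ℂ) • ta c.s₁ c.s₂ c.τ c.P₂ c.β c.k2 i z.2) *
        (c.P₂ z.2)⁻¹) := by
  have hm := H.lm
  intro a b
  have h1 : ∀ i j, UO rr Cf.z Cf.B l 2 (fun (c : Cf n N k δ l) z => (c.s₂ z.2 i j : ℂ) *
      (-(1 / (2 * ((n : ℂ) + 2))) * Sr (fun i j x => (c.τ x i j : ℂ))
        (fun i x => lb c.s₁ c.β c.k2 i x a b) i j z)) := by
    intro i j
    have h2 : UO rr Cf.z Cf.B l 2 (fun (c : Cf n N k δ l) => Sr (fun i j x => (c.τ x i j : ℂ))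
        (fun i x => lb c.s₁ c.β c.k2 i x a b) i j) :=
      uo_Sr hrr (T := fun c i j x => (c.τ x i j : ℂ))
        (u := fun c i x => lb c.s₁ c.β c.k2 i x a b)
        (fun i j => yo H le_rfl (g_t H i j)) (fun i => km_lb H i a b) i j
    exact ((uo_snd (yo H (by omega) (g_s2 H i j))).cmul (uo_c h2 _)).mono le_rfl (by norm_num)
  have h3 : UM rr Cf.z Cf.B l 2 (fun (c : Cf n N k δ l) z =>
      ∑ i, dyk i (c3 c.s₁ c.τ c.β c.k2) z * bR c.s₂ c.P₂ c.G₂ i z.2) :=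
    UM.sum Finset.univ fun i _ => (UM.mulc ((um_dyk (zm_c3 H) i).mono (Nat.le_succ l) le_rfl)
      (um_snd (ym H (by omega) (g_bR H i)))).mono le_rfl (by norm_num)
  refine ((UO.sum Finset.univ fun i _ => UO.sum Finset.univ fun j _ => h1 i j).add
    (h3 a b)).of_eq fun c z => ?_
  exact (can_eq H c z a b).symm

theorem zm_Fy : UM rr Cf.z Cf.B l 2
    (fun (c : Cf n N k δ l) => Fy c.s₁ c.s₂ c.τ c.P₂ c.G₂ c.β c.Y c.Γ c.k2) := by
  have hm := H.lm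
  have h1 : UM rr Cf.z Cf.B l 2 (fun (c : Cf n N k δ l) z => ∑ a, ∑ b,
      (((z.1 a - z.2 a) * (z.1 b - z.2 b) : ℝ) : ℂ) •
        Rv c.s₂ (bR c.s₂ c.P₂ c.G₂) (c.k2 a b) z.2) := by
    refine UM.sum Finset.univ fun a _ => UM.sum Finset.univ fun b _ => ?_
    have h2 : UO rr Cf.z 1 l 2 (fun (_ : Cf n N k δ l) z =>
        (((z.1 a - z.2 a) * (z.1 b - z.2 b) : ℝ) : ℂ)) := by
      refine ((uo_q hrr a).cmul (uo_q hrr b)).of_eq fun c z => ?_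
      unfold q
      push_cast
      rfl
    exact UM.csmul h2 (um_snd (km_rv H a b))
  have h3 : UM rr Cf.z Cf.B l 2 (fun (c : Cf n N k δ l) z => ∑ a, ∑ b,
      (c.Y a z.1 - c.Y a z.2 - ∑ i, ((z.1 i - z.2 i : ℝ) : ℂ) • pdm i (c.Y a) z.2) *
        (c.Γ a b z.2 * rh c.s₁ c.s₂ c.τ c.P₂ c.G₂ c.β c.k2 b z.2 * (c.P₂ z.2)⁻¹)) := by
    refine UM.sum Finset.univ fun a _ => UM.sum Finset.univ fun b _ => ?_
    have h4 : Km l (fun (c : Cf n N k δ l) x =>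
        c.Γ a b x * rh c.s₁ c.s₂ c.τ c.P₂ c.G₂ c.β c.k2 b x * (c.P₂ x)⁻¹) :=
      UM.mulc (UM.cmul (ym H (by omega) (g_Γ H a b)) ((km_rh H b).mono (Nat.le_succ l) le_rfl))
        (ym H (by omega) (g_Pi H))
    exact UM.cmul (zm_Y H a) (um_snd h4)
  exact ((UM.csmul (UO.const (1 / 2 : ℂ)) h1).mono le_rfl (by norm_num)).add (zm_can H) |>.add h3

end Z

end Vale.Agent.P088.S4.H871
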